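import Vale.Agent.H60.Rot.Defs

/-!
# Integrals over the unit ball of functions of the radial projection

The integral `∫ x in ball 0 1, K (theta x)` of a continuous `K` is (a multiple of) the integral
of `K` over the unit sphere.  This file provides integrability, differentiation under the
integral sign, a positivity statement and the invariance under linear isometries.
-/

namespace Vale.Agent.H60.Rot

open MeasureTheory Set

variable {n : ℕ}

theorem theta_zero : theta (0 : E n) = 0 := by
  simp [theta]

theorem norm_theta {x : E n} (hx : x ≠ 0) : ‖theta x‖ = 1 := by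
  unfold theta
  rw [norm_smul, norm_inv, norm_norm, inv_mul_cancel₀ (norm_ne_zero_iff.mpr hx)]

theorem norm_theta_le (x : E n) : ‖theta x‖ ≤ 1 := by
  by_cases hx : x = 0
  · rw [hx, theta_zero, norm_zero]
    exact zero_le_one
  · exact (norm_theta hx).le

theorem theta_mem_closedBall (x : E n) : theta x ∈ Metric.closedBall (0 : E n) 1 := by
  rw [mem_closedBall_zero_iff]
  exact norm_theta_le x

theorem measurable_theta : Measurable (theta : E n → E n) :=
  (measurable_norm.inv).smul measurable_id

theorem norm_smul_theta (x : E n) : ‖x‖ • theta x = x := by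
  by_cases hx : x = 0
  · rw [hx, theta_zero, smul_zero]
  · unfold theta
    rw [smul_smul, mul_inv_cancel₀ (norm_ne_zero_iff.mpr hx), one_smul]

theorem theta_unit {q : E n} (hq : ‖q‖ = 1) : theta q = q := by
  unfold theta
  rw [hq, inv_one, one_smul]

theorem theta_smul_pos {c : ℝ} (hc : 0 < c) (x : E n) : theta (c • x) = theta x := by
  unfold theta
  rw [norm_smul, Real.norm_of_nonneg hc.le, mul_inv, smul_smul, mul_assoc, mul_comm _ c,
    ← mul_assoc, inv_mul_cancel₀ hc.ne', one_mul]

/-- the radial projection commutes with norm-preserving linear maps -/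
theorem theta_map (L : E n →L[ℝ] E n) (hL : ∀ x, ‖L x‖ = ‖x‖) (x : E n) :
    theta (L x) = L (theta x) := by
  unfold theta
  rw [hL, _root_.map_smul]

theorem continuousOn_theta : ContinuousOn (theta : E n → E n) {x | x ≠ 0} := by
  intro x hx
  have h1 : ContinuousAt (fun x : E n => ‖x‖⁻¹) x :=
    continuous_norm.continuousAt.inv₀ (norm_ne_zero_iff.mpr hx)
  exact (h1.smul continuousAt_id).continuousWithinAt

theorem measurable_comp_theta {K : E n → ℝ} (hK : Continuous K) :
    Measurable (fun x => K (theta x)) :=
  hK.measurable.comp measurable_theta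

theorem bounded_on_closedBall {K : E n → ℝ} (hK : Continuous K) :
    ∃ C : ℝ, ∀ q ∈ Metric.closedBall (0 : E n) 1, |K q| ≤ C := by
  obtain ⟨C, hC⟩ := (isCompact_closedBall (0 : E n) 1).exists_bound_of_continuousOn
    hK.continuousOn
  exact ⟨C, fun q hq => hC q hq⟩

theorem volume_ball_lt_top : (volume : Measure (E n)) (Metric.ball 0 1) < ⊤ :=
  measure_ball_lt_top

/-- integrability over the unit ball of a continuous function of the radial projection -/
theorem integrableOn_theta {K : E n → ℝ} (hK : Continuous K) :
    IntegrableOn (fun x => K (theta x)) (Metric.ball (0 : E n) 1) := by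
  obtain ⟨C, hC⟩ := bounded_on_closedBall hK
  refine Measure.integrableOn_of_bounded (M := C) volume_ball_lt_top.ne
    (measurable_comp_theta hK).aestronglyMeasurable ?_
  exact Filter.Eventually.of_forall (fun x => hC _ (theta_mem_closedBall x))

/-- differentiation under the integral sign for jointly continuous data -/
theorem hasDerivAt_ball_integral {Ψ Ψ' : ℝ → E n → ℝ}
    (hΨ : Continuous (Function.uncurry Ψ)) (hΨ' : Continuous (Function.uncurry Ψ'))
    (hd : ∀ t q, HasDerivAt (fun t => Ψ t q) (Ψ' t q) t) (t₀ : ℝ) :
    HasDerivAt (fun t => ∫ x in Metric.ball (0 : E n) 1, Ψ t (theta x))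
      (∫ x in Metric.ball (0 : E n) 1, Ψ' t₀ (theta x)) t₀ := by
  obtain ⟨C, hC⟩ := (isCompact_Icc.prod (isCompact_closedBall (0 : E n) 1) :
    IsCompact (Icc (t₀ - 1) (t₀ + 1) ×ˢ Metric.closedBall (0 : E n) 1)).exists_bound_of_continuousOn
      hΨ'.continuousOn
  have hΨt : ∀ t, Continuous (Ψ t) := fun t =>
    hΨ.comp (continuous_const.prodMk continuous_id)
  have hΨ't : ∀ t, Continuous (Ψ' t) := fun t =>
    hΨ'.comp (continuous_const.prodMk continuous_id)
  have key := hasDerivAt_integral_of_dominated_loc_of_deriv_le
    (μ := volume.restrict (Metric.ball (0 : E n) 1))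
    (F := fun t x => Ψ t (theta x)) (F' := fun t x => Ψ' t (theta x)) (x₀ := t₀)
    (s := Ioo (t₀ - 1) (t₀ + 1)) (bound := fun _ => C)
    (Ioo_mem_nhds (by linarith) (by linarith))
    (Filter.Eventually.of_forall (fun t => (measurable_comp_theta (hΨt t)).aestronglyMeasurable))
    (integrableOn_theta (hΨt t₀))
    ((measurable_comp_theta (hΨ't t₀)).aestronglyMeasurable)
    (Filter.Eventually.of_forall (fun x t ht =>
      hC (t, theta x) ⟨⟨ht.1.le, ht.2.le⟩, theta_mem_closedBall x⟩))
    (integrableOn_const (hs := volume_ball_lt_top.ne) (hC := enorm_ne_top))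
    (Filter.Eventually.of_forall (fun x t _ => hd t (theta x)))
  exact key.2

/-- the bound of a ball integral by the supremum on the closed unit ball -/
theorem abs_ball_integral_le {K : E n → ℝ} {C : ℝ}
    (hC : ∀ q ∈ Metric.closedBall (0 : E n) 1, |K q| ≤ C) :
    |∫ x in Metric.ball (0 : E n) 1, K (theta x)|
      ≤ C * (volume : Measure (E n)).real (Metric.ball 0 1) := by
  have := norm_setIntegral_le_of_norm_le_const (μ := (volume : Measure (E n)))
    (s := Metric.ball (0 : E n) 1) (f := fun x => K (theta x)) volume_ball_lt_top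
    (fun x _ => by
      rw [Real.norm_eq_abs]
      exact hC _ (theta_mem_closedBall x))
  rwa [Real.norm_eq_abs] at this

/-- invariance of the ball integrals under norm-preserving, measure-preserving linear maps -/
theorem ball_integral_comp (L : E n →L[ℝ] E n) (hL : ∀ x, ‖L x‖ = ‖x‖)
    (hmp : MeasurePreserving L (volume : Measure (E n)) volume) (K : E n → ℝ) :
    ∫ x in Metric.ball (0 : E n) 1, K (L (theta x)) = ∫ x in Metric.ball (0 : E n) 1, K (theta x) := by
  have hinj : Function.Injective L := by
    intro x y hxy
    have h1 : ‖L (x - y)‖ = 0 := by rw [map_sub, hxy, sub_self, norm_zero]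
    rw [hL] at h1
    exact sub_eq_zero.mp (norm_eq_zero.mp h1)
  have hemb : MeasurableEmbedding L := L.continuous.measurableEmbedding hinj
  have key := hmp.setIntegral_preimage_emb hemb (fun y => K (theta y)) (Metric.ball (0 : E n) 1)
  have hpre : L ⁻¹' Metric.ball (0 : E n) 1 = Metric.ball (0 : E n) 1 := by
    ext x
    simp only [mem_preimage, mem_ball_zero_iff, hL]
  rw [hpre] at key
  rw [← key]
  refine integral_congr_ae (Filter.Eventually.of_forall (fun x => ?_))
  show K (L (theta x)) = K (theta (L x))
  rw [theta_map L hL]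

end Vale.Agent.H60.Rot
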