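import Vale.Agent.H60.Rot.Defs

/-!
# Harmonic decomposition of polynomials on the unit sphere (TASK R1)

Sketch.  Write `N = ∑ X_i^2`.  For `g` homogeneous of degree `a` with `lap g = 0` one has
`lap (N^(m+1) * g) = (2m+2) (n + 2a + 2m) N^m * g` (product rule for `pderiv`, Euler's identity
`MvPolynomial.IsHomogeneous.sum_X_mul_pderiv`).  By strong induction on the degree `k`, every
homogeneous `p` of degree `k` is `∑_i N^i * h_i` with `h_i` homogeneous of degree `k - 2i` and
harmonic: apply the induction hypothesis to `lap p` (degree `k - 2`),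
`lap p = ∑_i N^i * g_i`, put `q = ∑_i c_i N^(i+1) * g_i` with `c_i = 1 / ((2i+2)(n + 2(k-2-2i) + 2i))`,
then `p - q` is harmonic and homogeneous of degree `k`.  On the unit sphere `N = 1`.  A general
polynomial is the sum of its homogeneous components (`MvPolynomial.sum_homogeneousComponent`);
collect the harmonic pieces by degree.
-/

namespace Vale.Agent.H60.Rot

open MvPolynomial

variable {n : ℕ}

/-- the polynomial `∑ X_i^2` -/
noncomputable def r1_N (n : ℕ) : MvPolynomial (Fin n) ℝ := ∑ i : Fin n, X i * X i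

theorem r1_N_hom : (r1_N n).IsHomogeneous 2 := by
  unfold r1_N
  apply IsHomogeneous.sum
  intro i _
  exact (isHomogeneous_X ℝ i).mul (isHomogeneous_X ℝ i)

theorem r1_pderiv_N (j : Fin n) : pderiv j (r1_N n) = (2 : ℝ) • X j := by
  classical
  unfold r1_N
  rw [map_sum]
  have h : ∀ i : Fin n, pderiv j ((X i : MvPolynomial (Fin n) ℝ) * X i)
      = if i = j then (2 : ℝ) • X j else 0 := by
    intro i
    rw [pderiv_mul, pderiv_X]
    by_cases hij : i = j
    · subst hij
      rw [if_pos rfl, Pi.single_eq_same, two_smul]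
      ring
    · rw [if_neg hij, Pi.single_eq_of_ne hij]
      ring
  rw [Finset.sum_congr rfl (fun i _ => h i), Finset.sum_ite_eq']
  simp

theorem r1_lap_zero : lap (0 : MvPolynomial (Fin n) ℝ) = 0 := by
  unfold lap
  simp

theorem r1_lap_add (p q : MvPolynomial (Fin n) ℝ) : lap (p + q) = lap p + lap q := by
  unfold lap
  simp only [map_add, Finset.sum_add_distrib]

theorem r1_lap_smul (c : ℝ) (p : MvPolynomial (Fin n) ℝ) : lap (c • p) = c • lap p := by
  unfold lap
  simp only [Derivation.map_smul, Finset.smul_sum]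

theorem r1_lap_sub (p q : MvPolynomial (Fin n) ℝ) : lap (p - q) = lap p - lap q := by
  unfold lap
  simp only [map_sub, Finset.sum_sub_distrib]

theorem r1_lap_sum {ι : Type*} (s : Finset ι) (f : ι → MvPolynomial (Fin n) ℝ) :
    lap (∑ i ∈ s, f i) = ∑ i ∈ s, lap (f i) := by
  unfold lap
  simp only [map_sum]
  exact Finset.sum_comm

theorem r1_lap_hom {k : ℕ} (p : MvPolynomial (Fin n) ℝ) (hp : p.IsHomogeneous k) :
    (lap p).IsHomogeneous (k - 2) := by
  unfold lap
  apply IsHomogeneous.sum
  intro i _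
  have h := (hp.pderiv (i := i)).pderiv (i := i)
  have e : k - 1 - 1 = k - 2 := by omega
  rw [e] at h
  exact h

theorem r1_lap_low {k : ℕ} (hk : k ≤ 1) (p : MvPolynomial (Fin n) ℝ) (hp : p.IsHomogeneous k) :
    lap p = 0 := by
  unfold lap
  apply Finset.sum_eq_zero
  intro i _
  have h := hp.pderiv (i := i)
  have e : k - 1 = 0 := by omega
  rw [e, ← totalDegree_zero_iff_isHomogeneous, totalDegree_eq_zero_iff_eq_C] at h
  rw [h, pderiv_C]

/-- the Laplacian of `N * h` for homogeneous `h` -/
theorem r1_lap_N_mul {b : ℕ} (h : MvPolynomial (Fin n) ℝ) (hh : h.IsHomogeneous b) :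
    lap (r1_N n * h) = (2 * (n : ℝ) + 4 * (b : ℝ)) • h + r1_N n * lap h := by
  have e : ∀ i : Fin n, pderiv i (pderiv i (r1_N n * h))
      = (2 : ℝ) • h + (4 : ℝ) • (X i * pderiv i h) + r1_N n * pderiv i (pderiv i h) := by
    intro i
    simp only [pderiv_mul, r1_pderiv_N, map_add, Derivation.map_smul, pderiv_X_self,
      smul_mul_assoc, one_mul]
    have e4 : (4 : ℝ) • (X i * pderiv i h) = (2 : ℝ) • (X i * pderiv i h)
        + (2 : ℝ) • (X i * pderiv i h) := by
      rw [← add_smul]
      norm_num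
    rw [e4, smul_add]
    abel
  have s1 : ∑ _i : Fin n, ((2 : ℝ) • h) = (2 * (n : ℝ)) • h := by
    rw [Finset.sum_const, Finset.card_univ, Fintype.card_fin, ← Nat.cast_smul_eq_nsmul ℝ n,
      smul_smul, mul_comm]
  have s2 : ∑ i : Fin n, (4 : ℝ) • (X i * pderiv i h) = (4 * (b : ℝ)) • h := by
    rw [← Finset.smul_sum, hh.sum_X_mul_pderiv, ← Nat.cast_smul_eq_nsmul ℝ b, smul_smul]
  have s3 : ∑ i : Fin n, r1_N n * pderiv i (pderiv i h)
      = r1_N n * ∑ i : Fin n, pderiv i (pderiv i h) := (Finset.mul_sum _ _ _).symm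
  unfold lap
  rw [Finset.sum_congr rfl (fun i _ => e i), Finset.sum_add_distrib, Finset.sum_add_distrib,
    s1, s2, s3, ← add_smul]

/-- the Laplacian of `N^(m+1) * g` for harmonic homogeneous `g` -/
theorem r1_lap_pow_mul {a : ℕ} (g : MvPolynomial (Fin n) ℝ) (hg : g.IsHomogeneous a)
    (hl : lap g = 0) (m : ℕ) :
    lap (r1_N n ^ (m + 1) * g)
      = ((2 * (m : ℝ) + 2) * ((n : ℝ) + 2 * (a : ℝ) + 2 * (m : ℝ))) • (r1_N n ^ m * g) := by
  induction m with
  | zero =>
    rw [zero_add, pow_one, pow_zero, one_mul, r1_lap_N_mul g hg, hl, mul_zero, add_zero]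
    congr 1
    push_cast
    ring
  | succ m ih =>
    have hh : (r1_N n ^ (m + 1) * g).IsHomogeneous (2 * (m + 1) + a) :=
      (r1_N_hom.pow (m + 1)).mul hg
    have e : r1_N n ^ (m + 1 + 1) * g = r1_N n * (r1_N n ^ (m + 1) * g) := by
      rw [pow_succ' (r1_N n) (m + 1), mul_assoc]
    rw [e, r1_lap_N_mul _ hh, ih, mul_smul_comm, ← mul_assoc, ← pow_succ', ← add_smul]
    congr 1
    push_cast
    ring

/-- decomposition of a homogeneous polynomial into `N^i * (harmonic)` -/
theorem r1_decomp (hn : 1 ≤ n) (k : ℕ) : ∀ p : MvPolynomial (Fin n) ℝ, p.IsHomogeneous k →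
    ∃ h : ℕ → MvPolynomial (Fin n) ℝ,
      (∀ i, (h i).IsHomogeneous (k - 2 * i) ∧ lap (h i) = 0) ∧
      p = ∑ i ∈ Finset.range (k / 2 + 1), r1_N n ^ i * h i := by
  induction k using Nat.strong_induction_on with
  | _ k ih =>
    intro p hp
    by_cases hk : k ≤ 1
    · refine ⟨fun i => if i = 0 then p else 0, fun i => ?_, ?_⟩
      · by_cases hi : i = 0
        · subst hi
          simp only [if_true, Nat.mul_zero, Nat.sub_zero]
          exact ⟨hp, r1_lap_low hk p hp⟩
        · simp only [if_neg hi]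
          exact ⟨isHomogeneous_zero _ _ _, r1_lap_zero⟩
      · have e : k / 2 = 0 := by omega
        rw [e, zero_add, Finset.sum_range_one]
        simp
    · have hk2 : 2 ≤ k := by omega
      obtain ⟨g, hg, hsum⟩ := ih (k - 2) (by omega) (lap p) (r1_lap_hom p hp)
      -- the constants
      let cst : ℕ → ℝ := fun i =>
        ((2 * (i : ℝ) + 2) * ((n : ℝ) + 2 * ((k - 2 - 2 * i : ℕ) : ℝ) + 2 * (i : ℝ)))
      have hcst : ∀ i, cst i ≠ 0 := by
        intro i
        have h1 : (0 : ℝ) < 2 * (i : ℝ) + 2 := by positivity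
        have h2 : (0 : ℝ) < (n : ℝ) + 2 * ((k - 2 - 2 * i : ℕ) : ℝ) + 2 * (i : ℝ) := by
          have hn' : (1 : ℝ) ≤ (n : ℝ) := by exact_mod_cast hn
          have h3 : (0 : ℝ) ≤ ((k - 2 - 2 * i : ℕ) : ℝ) := Nat.cast_nonneg _
          have h4 : (0 : ℝ) ≤ (i : ℝ) := Nat.cast_nonneg _
          linarith
        exact ne_of_gt (mul_pos h1 h2)
      let q : MvPolynomial (Fin n) ℝ :=
        ∑ i ∈ Finset.range ((k - 2) / 2 + 1), (cst i)⁻¹ • (r1_N n ^ (i + 1) * g i)
      have hq_lap : lap q = lap p := by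
        show lap (∑ i ∈ Finset.range ((k - 2) / 2 + 1), (cst i)⁻¹ • (r1_N n ^ (i + 1) * g i))
          = lap p
        rw [r1_lap_sum, hsum]
        refine Finset.sum_congr rfl (fun i _ => ?_)
        rw [r1_lap_smul, r1_lap_pow_mul (g i) (hg i).1 (hg i).2 i, smul_smul]
        have : (cst i)⁻¹ * ((2 * (i : ℝ) + 2)
            * ((n : ℝ) + 2 * ((k - 2 - 2 * i : ℕ) : ℝ) + 2 * (i : ℝ))) = 1 :=
          inv_mul_cancel₀ (hcst i)
        rw [this, one_smul]
      have hq_hom : q.IsHomogeneous k := by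
        apply IsHomogeneous.sum
        intro i hi
        have hi' : i < (k - 2) / 2 + 1 := Finset.mem_range.mp hi
        have h1 : (r1_N n ^ (i + 1) * g i).IsHomogeneous (2 * (i + 1) + (k - 2 - 2 * i)) :=
          (r1_N_hom.pow (i + 1)).mul (hg i).1
        have e : 2 * (i + 1) + (k - 2 - 2 * i) = k := by omega
        rw [e] at h1
        rw [smul_eq_C_mul]
        have h2 := (isHomogeneous_C (Fin n) ((cst i)⁻¹)).mul h1
        rw [zero_add] at h2
        exact h2
      refine ⟨fun i => if i = 0 then p - q else (cst (i - 1))⁻¹ • g (i - 1), fun i => ?_, ?_⟩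
      · by_cases hi : i = 0
        · subst hi
          simp only [if_true, Nat.mul_zero, Nat.sub_zero]
          refine ⟨?_, ?_⟩
          · have := hp.add (show (-q).IsHomogeneous k by
              rw [neg_eq_neg_one_mul, ← C_1, ← C_neg]
              have h2 := (isHomogeneous_C (Fin n) (-1 : ℝ)).mul hq_hom
              rw [zero_add] at h2
              exact h2)
            rw [← sub_eq_add_neg] at this
            exact this
          · rw [r1_lap_sub, hq_lap, sub_self]
        · simp only [if_neg hi]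
          refine ⟨?_, ?_⟩
          · have h1 := (hg (i - 1)).1
            have e : k - 2 - 2 * (i - 1) = k - 2 * i := by omega
            rw [e] at h1
            rw [smul_eq_C_mul]
            have h2 := (isHomogeneous_C (Fin n) ((cst (i - 1))⁻¹)).mul h1
            rw [zero_add] at h2
            exact h2
          · rw [r1_lap_smul, (hg (i - 1)).2, smul_zero]
      · have e : k / 2 + 1 = ((k - 2) / 2 + 1) + 1 := by omega
        rw [e, Finset.sum_range_succ']
        simp only [if_true, pow_zero, one_mul, Nat.add_sub_cancel, Nat.succ_ne_zero, if_false]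
        have e2 : ∑ i ∈ Finset.range ((k - 2) / 2 + 1),
            r1_N n ^ (i + 1) * ((cst i)⁻¹ • g i) = q := by
          show _ = ∑ i ∈ Finset.range ((k - 2) / 2 + 1), (cst i)⁻¹ • (r1_N n ^ (i + 1) * g i)
          refine Finset.sum_congr rfl (fun i _ => ?_)
          rw [mul_smul_comm]
        rw [e2]
        ring

theorem r1_pfun_N (x : E n) (hx : ‖x‖ = 1) : pfun (r1_N n) x = 1 := by
  unfold pfun r1_N
  rw [map_sum]
  simp only [map_mul, eval_X]
  have h := EuclideanSpace.norm_eq x
  rw [hx] at h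
  have h2 : (1 : ℝ) ^ 2 = ∑ i, ‖x i‖ ^ 2 := by
    rw [h, Real.sq_sqrt (Finset.sum_nonneg (fun i _ => sq_nonneg _))]
  rw [one_pow] at h2
  rw [h2]
  refine Finset.sum_congr rfl (fun i _ => ?_)
  rw [Real.norm_eq_abs, sq_abs]
  ring

/-- on the unit sphere every polynomial function is a finite sum of homogeneous harmonic
polynomial functions -/
theorem sphere_harmonic_decomp (hn : 1 ≤ n) (p : MvPolynomial (Fin n) ℝ) :
    ∃ (s : Finset ℕ) (q : ℕ → MvPolynomial (Fin n) ℝ),
      (∀ j ∈ s, (q j).IsHomogeneous j ∧ lap (q j) = 0) ∧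
      ∀ x : E n, ‖x‖ = 1 → pfun p x = ∑ j ∈ s, pfun (q j) x := by
  classical
  have hex := fun k : ℕ => r1_decomp hn k (homogeneousComponent k p)
    (homogeneousComponent_isHomogeneous k p)
  choose h hh hsum using hex
  let D := p.totalDegree
  refine ⟨Finset.range (D + 1), fun j => ∑ k ∈ Finset.range (D + 1),
    ∑ i ∈ Finset.range (k / 2 + 1), (if k - 2 * i = j then h k i else 0), fun j _ => ⟨?_, ?_⟩,
    fun x hx => ?_⟩
  · apply IsHomogeneous.sum
    intro k _
    apply IsHomogeneous.sum
    intro i _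
    by_cases hj : k - 2 * i = j
    · rw [if_pos hj, ← hj]
      exact (hh k i).1
    · rw [if_neg hj]
      exact isHomogeneous_zero _ _ _
  · rw [r1_lap_sum]
    apply Finset.sum_eq_zero
    intro k _
    rw [r1_lap_sum]
    apply Finset.sum_eq_zero
    intro i _
    by_cases hj : k - 2 * i = j
    · rw [if_pos hj]
      exact (hh k i).2
    · rw [if_neg hj]
      exact r1_lap_zero
  · have hN := r1_pfun_N x hx
    have hpf : ∀ a b : MvPolynomial (Fin n) ℝ, pfun (a * b) x = pfun a x * pfun b x :=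
      fun a b => by unfold pfun; rw [map_mul]
    have hps : ∀ (t : Finset ℕ) (f : ℕ → MvPolynomial (Fin n) ℝ),
        pfun (∑ i ∈ t, f i) x = ∑ i ∈ t, pfun (f i) x :=
      fun t f => by unfold pfun; rw [map_sum]
    have hpz : pfun (0 : MvPolynomial (Fin n) ℝ) x = 0 := by unfold pfun; rw [map_zero]
    have hpp : ∀ (a : MvPolynomial (Fin n) ℝ) (i : ℕ), pfun (a ^ i) x = pfun a x ^ i :=
      fun a i => by unfold pfun; rw [map_pow]
    have e1 : pfun p x = ∑ k ∈ Finset.range (D + 1), ∑ i ∈ Finset.range (k / 2 + 1),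
        pfun (h k i) x := by
      have hp : p = ∑ k ∈ Finset.range (D + 1), homogeneousComponent k p :=
        (sum_homogeneousComponent p).symm
      conv_lhs => rw [hp]
      rw [hps]
      refine Finset.sum_congr rfl (fun k _ => ?_)
      conv_lhs => rw [hsum k]
      rw [hps]
      refine Finset.sum_congr rfl (fun i _ => ?_)
      rw [hpf, hpp, hN, one_pow, one_mul]
    have e2 : ∀ j, pfun (∑ k ∈ Finset.range (D + 1),
          ∑ i ∈ Finset.range (k / 2 + 1), (if k - 2 * i = j then h k i else 0)) x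
        = ∑ k ∈ Finset.range (D + 1), ∑ i ∈ Finset.range (k / 2 + 1),
          (if k - 2 * i = j then pfun (h k i) x else 0) := by
      intro j
      rw [hps]
      refine Finset.sum_congr rfl (fun k _ => ?_)
      rw [hps]
      refine Finset.sum_congr rfl (fun i _ => ?_)
      by_cases hj : k - 2 * i = j
      · rw [if_pos hj, if_pos hj]
      · rw [if_neg hj, if_neg hj, hpz]
    rw [e1, Finset.sum_congr rfl (fun j _ => e2 j), Finset.sum_comm]
    refine Finset.sum_congr rfl (fun k hk => ?_)
    rw [Finset.sum_comm]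
    refine Finset.sum_congr rfl (fun i _ => ?_)
    rw [Finset.sum_ite_eq]
    have hk' : k < D + 1 := Finset.mem_range.mp hk
    have hmem : k - 2 * i ∈ Finset.range (D + 1) := Finset.mem_range.mpr (by omega)
    rw [if_pos hmem]

end Vale.Agent.H60.Rot
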