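import Vale.Agent.H60.Rot.Defs

/-!
# Density of polynomial functions on the closed unit ball (TASK R2)

Sketch.  Stone-Weierstrass (`ContinuousMap.subalgebra_topologicalClosure_eq_top_of_separatesPoints`
or `ContinuousMap.exists_mem_subalgebra_near_continuousMap_of_separatesPoints`) on the compact
space `Metric.closedBall (0 : E n) 1` for the subalgebra of restrictions of polynomial functions
(the range of the algebra homomorphism `p ↦ pfun p` restricted to the ball); it separates points
because the coordinate functions `pfun (X i)` do.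
-/

namespace Vale.Agent.H60.Rot

variable {n : ℕ}

/-- the `i`-th coordinate as a continuous function on the closed unit ball -/
noncomputable def r2_coord (i : Fin n) : C(Metric.closedBall (0 : E n) 1, ℝ) :=
  ⟨fun x => (x : E n) i, by fun_prop⟩

/-- restriction of polynomial functions to the closed unit ball, as an algebra homomorphism -/
noncomputable def r2_hom : MvPolynomial (Fin n) ℝ →ₐ[ℝ] C(Metric.closedBall (0 : E n) 1, ℝ) :=
  MvPolynomial.aeval r2_coord

theorem r2_hom_apply (p : MvPolynomial (Fin n) ℝ) (x : Metric.closedBall (0 : E n) 1) :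
    r2_hom p x = pfun p (x : E n) := by
  unfold r2_hom pfun
  induction p using MvPolynomial.induction_on with
  | C a => simp
  | add p q hp hq => simp [hp, hq]
  | mul_X p i hp => simp [hp, r2_coord]

theorem r2_separates :
    (r2_hom (n := n)).range.SeparatesPoints := by
  intro x y hxy
  have hne : (x : E n) ≠ (y : E n) := fun h => hxy (Subtype.ext h)
  obtain ⟨i, hi⟩ : ∃ i, (x : E n) i ≠ (y : E n) i := by
    by_contra hcon
    apply hne
    ext i
    by_contra hi
    exact hcon ⟨i, hi⟩
  refine ⟨fun z => r2_hom (MvPolynomial.X i) z, ⟨r2_hom (MvPolynomial.X i), ?_, rfl⟩, ?_⟩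
  · exact AlgHom.mem_range_self _ _
  · simpa [r2_hom_apply, pfun] using hi

/-- polynomial functions are uniformly dense in the continuous functions on the closed unit
ball -/
theorem polynomial_dense (v : E n → ℝ) (hv : Continuous v) (ε : ℝ) (hε : 0 < ε) :
    ∃ p : MvPolynomial (Fin n) ℝ, ∀ x : E n, ‖x‖ ≤ 1 → |v x - pfun p x| ≤ ε := by
  have : CompactSpace (Metric.closedBall (0 : E n) 1) :=
    isCompact_iff_compactSpace.mp (isCompact_closedBall _ _)
  let f : C(Metric.closedBall (0 : E n) 1, ℝ) := ⟨fun x => v x, by fun_prop⟩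
  obtain ⟨g, hg⟩ :=
    ContinuousMap.exists_mem_subalgebra_near_continuousMap_of_separatesPoints
      (r2_hom (n := n)).range r2_separates f ε hε
  obtain ⟨p, hp⟩ := g.2
  refine ⟨p, fun x hx => ?_⟩
  have hxmem : x ∈ Metric.closedBall (0 : E n) 1 := by
    simpa [Metric.mem_closedBall, dist_zero_right] using hx
  have h1 := ContinuousMap.norm_coe_le_norm ((g : C(Metric.closedBall (0 : E n) 1, ℝ)) - f)
    ⟨x, hxmem⟩
  have h2 : ((g : C(Metric.closedBall (0 : E n) 1, ℝ)) - f) ⟨x, hxmem⟩ = pfun p x - v x := by
    have hp' : (g : C(Metric.closedBall (0 : E n) 1, ℝ)) = r2_hom p := hp.symm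
    rw [ContinuousMap.sub_apply, hp', r2_hom_apply]
    rfl
  rw [h2, Real.norm_eq_abs] at h1
  rw [abs_sub_comm]
  exact le_trans h1 hg.le

end Vale.Agent.H60.Rot
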