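import Vale.Agent.H60.Rot.ModeOf
import Vale.Agent.H60.Rot.PolyDecomp
import Vale.Agent.H60.Rot.PolyDense

/-!
# Completeness of the homogeneous harmonic polynomials on the sphere

A continuous function all of whose modes against homogeneous harmonic polynomials vanish is
zero.
-/

namespace Vale.Agent.H60.Rot

open MeasureTheory Set

variable {n : ℕ}

theorem nontrivial_E (hn : 1 ≤ n) : Nontrivial (E n) := by
  have : Nonempty (Fin n) := ⟨⟨0, hn⟩⟩
  infer_instance

/-- sphere integrals only depend on the values on the unit sphere -/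
theorem sph_congr_unit (hn : 1 ≤ n) {K₁ K₂ : E n → ℝ} (h : ∀ q : E n, ‖q‖ = 1 → K₁ q = K₂ q) :
    sph K₁ = sph K₂ := by
  have := nontrivial_E hn
  unfold sph
  refine integral_congr_ae (ae_restrict_of_ae ?_)
  have h0 : ∀ᵐ x : E n ∂volume, x ≠ 0 := by
    rw [ae_iff]
    simp only [ne_eq, not_not, ofPred_eq_eq_singleton]
    exact measure_singleton 0
  filter_upwards [h0] with x hx
  exact h _ (norm_theta hx)

/-- a continuous function on the sphere which is orthogonal to all homogeneous harmonic
polynomials vanishes -/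
theorem sphere_complete (hn : 1 ≤ n) {v : E n → ℝ} (hv : Continuous v)
    (hzero : ∀ (j : ℕ) (P : MvPolynomial (Fin n) ℝ), P.IsHomogeneous j → lap P = 0 →
      sph (fun q => v q * pfun P q) = 0) :
    ∀ q : E n, ‖q‖ = 1 → v q = 0 := by
  -- orthogonality to all polynomials
  have hpoly : ∀ p : MvPolynomial (Fin n) ℝ, sph (fun q => v q * pfun p q) = 0 := by
    intro p
    obtain ⟨s, Q, hQ, hdec⟩ := sphere_harmonic_decomp hn p
    have e1 : sph (fun q => v q * pfun p q) = sph (fun q => ∑ j ∈ s, v q * pfun (Q j) q) := by
      refine sph_congr_unit hn (fun q hq => ?_)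
      rw [hdec q hq, Finset.mul_sum]
    rw [e1, sph_sum s (K := fun j q => v q * pfun (Q j) q)
      (fun j _ => hv.mul (pfun_contDiff (Q j)).continuous)]
    exact Finset.sum_eq_zero (fun j hj => hzero j (Q j) (hQ j hj).1 (hQ j hj).2)
  obtain ⟨Cv, hCv⟩ := bounded_on_closedBall hv
  have hCv0 : 0 ≤ Cv := (abs_nonneg _).trans (hCv 0 (Metric.mem_closedBall_self zero_le_one))
  set vol : ℝ := (volume : Measure (E n)).real (Metric.ball 0 1) with hvol
  have hvol0 : 0 ≤ vol := measureReal_nonneg
  -- the square integral is arbitrarily small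
  have hsmall : ∀ ε : ℝ, 0 < ε → sph (fun q => v q * v q) ≤ Cv * ε * vol := by
    intro ε hε
    obtain ⟨p, hp⟩ := polynomial_dense v hv ε hε
    have hpc : Continuous (pfun p) := (pfun_contDiff p).continuous
    have e1 : (fun q : E n => v q * v q)
        = fun q => v q * (v q - pfun p q) + v q * pfun p q := by
      funext q
      ring
    have s1 : sph (fun q => v q * (v q - pfun p q) + v q * pfun p q)
        = sph (fun q => v q * (v q - pfun p q)) + sph (fun q => v q * pfun p q) :=
      sph_add (K₁ := fun q => v q * (v q - pfun p q)) (K₂ := fun q => v q * pfun p q)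
        (hv.mul (hv.sub hpc)) (hv.mul hpc)
    rw [e1, s1, hpoly p, add_zero]
    refine (le_abs_self _).trans (abs_sph_le (fun q hq => ?_))
    rw [abs_mul]
    exact mul_le_mul (hCv q hq) (hp q (mem_closedBall_zero_iff.mp hq)) (abs_nonneg _) hCv0
  have hle : sph (fun q => v q * v q) ≤ 0 := by
    by_contra hcon
    push Not at hcon
    set I : ℝ := sph (fun q => v q * v q) with hI
    have hpos : 0 < Cv * vol + 1 := by positivity
    have h1 := hsmall (I / (2 * (Cv * vol + 1))) (by positivity)
    have h2 : Cv * (I / (2 * (Cv * vol + 1))) * vol = I * (Cv * vol / (2 * (Cv * vol + 1))) := by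
      field_simp
    have h3 : Cv * vol / (2 * (Cv * vol + 1)) ≤ 1 / 2 := by
      rw [div_le_div_iff₀ (by positivity) (by norm_num)]
      nlinarith [mul_nonneg hCv0 hvol0]
    rw [h2] at h1
    nlinarith
  -- hence the square vanishes almost everywhere on the ball
  have hint : IntegrableOn (fun x : E n => v (theta x) * v (theta x)) (Metric.ball (0 : E n) 1) :=
    integrableOn_theta (K := fun q => v q * v q) (hv.mul hv)
  have hnn : (0 : E n → ℝ) ≤ᵐ[volume.restrict (Metric.ball (0 : E n) 1)]
      fun x => v (theta x) * v (theta x) :=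
    Filter.Eventually.of_forall (fun x => mul_self_nonneg _)
  have hge : 0 ≤ sph (fun q => v q * v q) := by
    unfold sph
    exact integral_nonneg (fun x => mul_self_nonneg _)
  have heq : sph (fun q => v q * v q) = 0 := le_antisymm hle hge
  have hae : (fun x : E n => v (theta x) * v (theta x))
      =ᵐ[volume.restrict (Metric.ball (0 : E n) 1)] 0 :=
    (setIntegral_eq_zero_iff_of_nonneg_ae hnn hint).mp heq
  -- continuity gives vanishing on the punctured ball
  set U : Set (E n) := Metric.ball (0 : E n) 1 ∩ {x | x ≠ 0} with hU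
  have hUopen : IsOpen U := Metric.isOpen_ball.inter isOpen_ne
  have hae' : (fun x : E n => v (theta x) * v (theta x)) =ᵐ[volume.restrict U] 0 :=
    ae_mono (Measure.restrict_mono inter_subset_left le_rfl) hae
  have hcont : ContinuousOn (fun x : E n => v (theta x) * v (theta x)) U := by
    have h1 : ContinuousOn (fun x : E n => v (theta x)) U :=
      hv.comp_continuousOn (continuousOn_theta.mono inter_subset_right)
    exact h1.mul h1
  have hEq := Measure.eqOn_open_of_ae_eq hae' hUopen hcont continuousOn_const
  intro q hq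
  have hx : (1 / 2 : ℝ) • q ∈ U := by
    constructor
    · rw [mem_ball_zero_iff, norm_smul, hq, mul_one, Real.norm_of_nonneg (by norm_num)]
      norm_num
    · intro h0
      have : ‖(1 / 2 : ℝ) • q‖ = 0 := by rw [h0, norm_zero]
      rw [norm_smul, hq, mul_one, Real.norm_of_nonneg (by norm_num)] at this
      norm_num at this
  have h2 := hEq hx
  have h3 : theta ((1 / 2 : ℝ) • q) = q := by
    rw [theta_smul_pos (by norm_num), theta_unit hq]
  simp only [h3, Pi.zero_apply] at h2
  exact mul_self_eq_zero.mp h2

/-- a continuous function all of whose modes vanish is zero -/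
theorem eq_zero_of_modes (hn : 1 ≤ n) {w : E n → ℝ} (hw : Continuous w)
    (hzero : ∀ (j : ℕ) (P : MvPolynomial (Fin n) ℝ), P.IsHomogeneous j → lap P = 0 →
      ∀ r, 0 < r → md w (pfun P) r = 0) :
    ∀ x : E n, w x = 0 := by
  have := nontrivial_E hn
  have hne : ∀ x : E n, x ≠ 0 → w x = 0 := by
    intro x hx
    have hr : 0 < ‖x‖ := norm_pos_iff.mpr hx
    have hv : Continuous (fun q : E n => w (‖x‖ • q)) := hw.comp (continuous_const_smul ‖x‖)
    have h1 := sphere_complete hn hv (fun j P hP hlap => hzero j P hP hlap ‖x‖ hr) (theta x)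
      (norm_theta hx)
    rwa [norm_smul_theta] at h1
  have hclosed : IsClosed {x : E n | w x = 0} := isClosed_eq hw continuous_const
  have hsub : ({0}ᶜ : Set (E n)) ⊆ {x : E n | w x = 0} := fun x hx => hne x hx
  have hdense : Dense ({0}ᶜ : Set (E n)) := dense_compl_singleton 0
  intro x
  have : x ∈ closure ({0}ᶜ : Set (E n)) := hdense x
  exact closure_minimal hsub hclosed this

end Vale.Agent.H60.Rot
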