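import Vale.Agent.H60.Rot.Defs

/-!
# The sum over all coordinate planes (TASK R5)

Sketch.  For `i ≠ j`: `genL i j p = p i • e j - p j • e i` and
`genL i j (genL i j p) = -(p i • e i + p j • e j)`.  Expand by bilinearity and symmetry:
`H (J p) (J p) = (p i)^2 * H (e j) (e j) - 2 * p i * p j * H (e i) (e j) + (p j)^2 * H (e i) (e i)`.
Use `p = ∑ i, p i • e i` (`EuclideanSpace.basisFun`), so `H p p = ∑ i, ∑ j, p i * p j * H (e i) (e j)`,
`D p = ∑ i, p i * D (e i)`, `‖p‖^2 = ∑ i, (p i)^2` (`EuclideanSpace.real_norm_sq_eq`), and sum over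
the ordered pairs `i ≠ j` (add and subtract the diagonal).
-/

namespace Vale.Agent.H60.Rot

variable {n : ℕ}

theorem r5_e_apply (i k : Fin n) : (e i : E n) k = if k = i then 1 else 0 := by
  unfold e
  simp

theorem r5_genL_apply (i j : Fin n) (p : E n) : genL i j p = p i • e j - p j • e i := by
  unfold genL
  simp

theorem r5_genL_genL (i j : Fin n) (hij : i ≠ j) (p : E n) :
    genL i j (genL i j p) = -(p i • e i + p j • e j) := by
  rw [r5_genL_apply i j (genL i j p), r5_genL_apply i j p]
  have h1 : (p i • e j - p j • e i : E n) i = -p j := by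
    simp [r5_e_apply, hij]
  have h2 : (p i • e j - p j • e i : E n) j = p i := by
    simp [r5_e_apply, Ne.symm hij]
  rw [h1, h2, neg_smul, neg_add]
  abel

theorem r5_expand (p : E n) : p = ∑ i, p i • e i := by
  ext k
  simp [r5_e_apply]

/-- the summand for one coordinate plane -/
theorem r5_term (H : E n →L[ℝ] E n →L[ℝ] ℝ) (hH : ∀ a b, H a b = H b a)
    (D : E n →L[ℝ] ℝ) (p : E n) (i j : Fin n) (hij : i ≠ j) :
    H (genL i j p) (genL i j p) + D (genL i j (genL i j p))
      = p i ^ 2 * H (e j) (e j) - 2 * p i * p j * H (e i) (e j) + p j ^ 2 * H (e i) (e i)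
        - p i * D (e i) - p j * D (e j) := by
  rw [r5_genL_genL i j hij p, r5_genL_apply i j p]
  simp only [map_sub, map_smul, map_neg, map_add, _root_.sub_apply,
    _root_.smul_apply, smul_eq_mul]
  rw [hH (e j) (e i)]
  ring

theorem r5_bilin (H : E n →L[ℝ] E n →L[ℝ] ℝ) (a : Fin n → ℝ) :
    H (∑ i, a i • e i) (∑ j, a j • e j) = ∑ i, ∑ j, a i * a j * H (e i) (e j) := by
  simp only [map_sum, map_smul, _root_.sum_apply, _root_.smul_apply,
    smul_eq_mul, Finset.mul_sum]
  rw [Finset.sum_comm]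
  refine Finset.sum_congr rfl (fun i _ => Finset.sum_congr rfl (fun j _ => ?_))
  ring

theorem r5_lin (D : E n →L[ℝ] ℝ) (a : Fin n → ℝ) :
    D (∑ i, a i • e i) = ∑ i, a i * D (e i) := by
  simp only [map_sum, map_smul, smul_eq_mul]

/-- the finite-sum identity behind the statement -/
theorem r5_alg (a d : Fin n → ℝ) (h : Fin n → Fin n → ℝ) :
    ∑ i : Fin n, ∑ j : Fin n, (if i = j then (0 : ℝ) else
        a i ^ 2 * h j j - 2 * a i * a j * h i j + a j ^ 2 * h i i - a i * d i - a j * d j)
      = 2 * ((∑ i, a i ^ 2) * ∑ i, h i i - ∑ i, ∑ j, a i * a j * h i j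
        - ((n : ℝ) - 1) * ∑ i, a i * d i) := by
  have e1 : ∀ i j : Fin n, (if i = j then (0 : ℝ) else
        a i ^ 2 * h j j - 2 * a i * a j * h i j + a j ^ 2 * h i i - a i * d i - a j * d j)
      = (a i ^ 2 * h j j - 2 * (a i * a j * h i j) + a j ^ 2 * h i i - a i * d i - a j * d j)
        + (if i = j then 2 * (a j * d j) else 0) := by
    intro i j
    by_cases hij : i = j
    · subst hij
      rw [if_pos rfl, if_pos rfl]
      ring
    · rw [if_neg hij, if_neg hij]
      ring
  have key : ∀ i : Fin n, ∑ j : Fin n, (if i = j then (0 : ℝ) else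
        a i ^ 2 * h j j - 2 * a i * a j * h i j + a j ^ 2 * h i i - a i * d i - a j * d j)
      = a i ^ 2 * (∑ j, h j j) - 2 * (∑ j, a i * a j * h i j) + (∑ j, a j ^ 2) * h i i
        - (n : ℝ) * (a i * d i) - (∑ j, a j * d j) + 2 * (a i * d i) := by
    intro i
    rw [Finset.sum_congr rfl (fun j _ => e1 i j), Finset.sum_add_distrib, Finset.sum_ite_eq,
      if_pos (Finset.mem_univ i), Finset.sum_sub_distrib, Finset.sum_sub_distrib,
      Finset.sum_add_distrib, Finset.sum_sub_distrib, ← Finset.mul_sum, ← Finset.mul_sum,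
      ← Finset.sum_mul, Finset.sum_const, Finset.card_univ, Fintype.card_fin, nsmul_eq_mul]
  rw [Finset.sum_congr rfl (fun i _ => key i), Finset.sum_add_distrib, Finset.sum_sub_distrib,
    Finset.sum_sub_distrib, Finset.sum_add_distrib, Finset.sum_sub_distrib, ← Finset.sum_mul,
    ← Finset.mul_sum, ← Finset.mul_sum, ← Finset.mul_sum, ← Finset.mul_sum, Finset.sum_const,
    Finset.card_univ, Fintype.card_fin, nsmul_eq_mul]
  ring

/-- the sum over all coordinate planes of the second derivatives along the rotations is twice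
the spherical Laplacian -/
theorem pair_sum_identity (H : E n →L[ℝ] E n →L[ℝ] ℝ) (hH : ∀ a b, H a b = H b a)
    (D : E n →L[ℝ] ℝ) (p : E n) :
    ∑ i : Fin n, ∑ j : Fin n, (if i = j then (0 : ℝ) else
        H (genL i j p) (genL i j p) + D (genL i j (genL i j p)))
      = 2 * (‖p‖ ^ 2 * ∑ i, H (e i) (e i) - H p p - ((n : ℝ) - 1) * D p) := by
  have e1 : ∀ i j : Fin n, (if i = j then (0 : ℝ) else
        H (genL i j p) (genL i j p) + D (genL i j (genL i j p)))
      = (if i = j then (0 : ℝ) else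
        p i ^ 2 * H (e j) (e j) - 2 * p i * p j * H (e i) (e j) + p j ^ 2 * H (e i) (e i)
          - p i * D (e i) - p j * D (e j)) := by
    intro i j
    by_cases hij : i = j
    · rw [if_pos hij, if_pos hij]
    · rw [if_neg hij, if_neg hij, r5_term H hH D p i j hij]
  have hp := r5_expand p
  have hHp : H p p = ∑ i, ∑ j, p i * p j * H (e i) (e j) := by
    conv_lhs => rw [hp]
    exact r5_bilin H (fun i => p i)
  have hDp : D p = ∑ i, p i * D (e i) := by
    conv_lhs => rw [hp]
    exact r5_lin D (fun i => p i)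
  have hnorm : ‖p‖ ^ 2 = ∑ i, p i ^ 2 := EuclideanSpace.real_norm_sq_eq p
  rw [Finset.sum_congr rfl (fun i _ => Finset.sum_congr rfl (fun j _ => e1 i j)),
    r5_alg (fun i => p i) (fun i => D (e i)) (fun i j => H (e i) (e j)), hHp, hDp, hnorm]

end Vale.Agent.H60.Rot
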