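import Vale.Agent.H60.Rot.Defs

/-!
# Calculus of polynomial functions on Euclidean space (TASK R3)

`pfun p` is a finite sum of products of coordinate functions, hence smooth.  Its derivative in
the direction `v` is `∑ v_i * pfun (pderiv i p)` (induction on `p`: constants, sums, `p * X i`).
Homogeneity follows from the monomial expansion of the evaluation.  For the last statement:
the trace of the second derivative is `pfun (lap p)`, and Euler's identity for homogeneous
polynomials (applied to `p` and to its first derivatives `pderiv i p`) gives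
`D(pfun p)(x)[x] = j * pfun p x` and `D^2(pfun p)(x)[x,x] = j (j-1) * pfun p x`.
-/

namespace Vale.Agent.H60.Rot

variable {n : ℕ}

theorem r3_pfun_add (p q : MvPolynomial (Fin n) ℝ) (x : E n) :
    pfun (p + q) x = pfun p x + pfun q x := by simp [pfun]

theorem r3_pfun_mul (p q : MvPolynomial (Fin n) ℝ) (x : E n) :
    pfun (p * q) x = pfun p x * pfun q x := by simp [pfun]

theorem r3_pfun_C (a : ℝ) (x : E n) : pfun (MvPolynomial.C a) x = a := by simp [pfun]

theorem r3_pfun_X (i : Fin n) (x : E n) : pfun (MvPolynomial.X i) x = x i := by simp [pfun]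

theorem r3_pfun_zero (x : E n) : pfun (0 : MvPolynomial (Fin n) ℝ) x = 0 := by simp [pfun]

theorem r3_pfun_one (x : E n) : pfun (1 : MvPolynomial (Fin n) ℝ) x = 1 := by simp [pfun]

theorem r3_pfun_sum {ι : Type*} (s : Finset ι) (f : ι → MvPolynomial (Fin n) ℝ) (x : E n) :
    pfun (∑ i ∈ s, f i) x = ∑ i ∈ s, pfun (f i) x := by simp [pfun]

theorem r3_pfun_nsmul (j : ℕ) (p : MvPolynomial (Fin n) ℝ) (x : E n) :
    pfun (j • p) x = (j : ℝ) * pfun p x := by simp [pfun]

theorem r3_proj_apply (k : Fin n) (v : E n) : (EuclideanSpace.proj k : E n →L[ℝ] ℝ) v = v k :=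
  rfl

/-- the derivative of `pfun p` at `x` -/
noncomputable def r3_D (p : MvPolynomial (Fin n) ℝ) (x : E n) : E n →L[ℝ] ℝ :=
  ∑ i, pfun (MvPolynomial.pderiv i p) x • (EuclideanSpace.proj i : E n →L[ℝ] ℝ)

theorem r3_D_apply (p : MvPolynomial (Fin n) ℝ) (x v : E n) :
    r3_D p x v = ∑ i, v i * pfun (MvPolynomial.pderiv i p) x := by
  simp only [r3_D, sum_apply, smul_apply, smul_eq_mul,
    r3_proj_apply]
  exact Finset.sum_congr rfl (fun i _ => mul_comm _ _)

theorem r3_pderiv_mul_X (p : MvPolynomial (Fin n) ℝ) (k i : Fin n) (x : E n) :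
    pfun (MvPolynomial.pderiv i (p * MvPolynomial.X k)) x
      = pfun (MvPolynomial.pderiv i p) x * x k + pfun p x * (if i = k then 1 else 0) := by
  rw [MvPolynomial.pderiv_mul, r3_pfun_add, r3_pfun_mul, r3_pfun_mul, r3_pfun_X,
    MvPolynomial.pderiv_X]
  congr 2
  by_cases h : i = k
  · subst h
    simp [r3_pfun_one]
  · have h' : (Pi.single (M := fun _ => MvPolynomial (Fin n) ℝ) i 1 k) = 0 :=
      Pi.single_eq_of_ne (fun hk => h hk.symm) _
    rw [h', r3_pfun_zero, if_neg h]

theorem r3_hasFDerivAt (p : MvPolynomial (Fin n) ℝ) (x : E n) :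
    HasFDerivAt (pfun p) (r3_D p x) x := by
  induction p using MvPolynomial.induction_on with
  | C a =>
    have h1 : pfun (MvPolynomial.C a : MvPolynomial (Fin n) ℝ) = fun _ => a := by
      funext y; exact r3_pfun_C a y
    have h2 : r3_D (MvPolynomial.C a : MvPolynomial (Fin n) ℝ) x = 0 := by
      simp [r3_D, r3_pfun_zero]
    rw [h1, h2]
    exact hasFDerivAt_const a x
  | add p q hp hq =>
    have h1 : pfun (p + q) = fun y => pfun p y + pfun q y := by
      funext y; exact r3_pfun_add p q y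
    have h2 : r3_D (p + q) x = r3_D p x + r3_D q x := by
      simp [r3_D, r3_pfun_add, add_smul, Finset.sum_add_distrib]
    rw [h1, h2]
    exact hp.add hq
  | mul_X p k hp =>
    have h1 : pfun (p * MvPolynomial.X k)
        = fun y => pfun p y * (EuclideanSpace.proj k : E n →L[ℝ] ℝ) y := by
      funext y; rw [r3_pfun_mul, r3_pfun_X]; rfl
    have h2 : r3_D (p * MvPolynomial.X k) x
        = pfun p x • (EuclideanSpace.proj k : E n →L[ℝ] ℝ)
          + ((EuclideanSpace.proj k : E n →L[ℝ] ℝ) x) • r3_D p x := by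
      refine ContinuousLinearMap.ext (fun v => ?_)
      simp only [add_apply, smul_apply, smul_eq_mul,
        r3_D_apply, r3_proj_apply, r3_pderiv_mul_X, mul_add, Finset.sum_add_distrib,
        Finset.mul_sum]
      have h3 : ∑ i, v i * (pfun p x * (if i = k then (1 : ℝ) else 0)) = pfun p x * v k := by
        rw [Finset.sum_eq_single k]
        · rw [if_pos rfl]; ring
        · intro i _ hik
          rw [if_neg hik]; ring
        · intro hk
          exact (hk (Finset.mem_univ k)).elim
      rw [h3, add_comm]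
      congr 1
      exact Finset.sum_congr rfl (fun i _ => by ring)
    rw [h1, h2]
    exact hp.mul (EuclideanSpace.proj k : E n →L[ℝ] ℝ).hasFDerivAt

theorem r3_contDiff (p : MvPolynomial (Fin n) ℝ) (m : WithTop ℕ∞) : ContDiff ℝ m (pfun p) := by
  induction p using MvPolynomial.induction_on with
  | C a =>
    have h1 : pfun (MvPolynomial.C a : MvPolynomial (Fin n) ℝ) = fun _ => a := by
      funext y; exact r3_pfun_C a y
    rw [h1]
    exact contDiff_const
  | add p q hp hq =>
    have h1 : pfun (p + q) = fun y => pfun p y + pfun q y := by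
      funext y; exact r3_pfun_add p q y
    rw [h1]
    exact hp.add hq
  | mul_X p k hp =>
    have h1 : pfun (p * MvPolynomial.X k)
        = fun y => pfun p y * (EuclideanSpace.proj k : E n →L[ℝ] ℝ) y := by
      funext y; rw [r3_pfun_mul, r3_pfun_X]; rfl
    rw [h1]
    exact hp.mul (EuclideanSpace.proj k : E n →L[ℝ] ℝ).contDiff

theorem pfun_contDiff (p : MvPolynomial (Fin n) ℝ) : ContDiff ℝ 2 (pfun p) :=
  r3_contDiff p 2

theorem pfun_fderiv (p : MvPolynomial (Fin n) ℝ) (x v : E n) :
    fderiv ℝ (pfun p) x v = ∑ i, v i * pfun (MvPolynomial.pderiv i p) x := by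
  rw [(r3_hasFDerivAt p x).fderiv, r3_D_apply]

theorem pfun_homogeneous {p : MvPolynomial (Fin n) ℝ} {j : ℕ} (hp : p.IsHomogeneous j) (c : ℝ)
    (x : E n) : pfun p (c • x) = c ^ j * pfun p x := by
  unfold pfun
  rw [MvPolynomial.eval_eq', MvPolynomial.eval_eq', Finset.mul_sum]
  refine Finset.sum_congr rfl (fun d hd => ?_)
  have hd' : MvPolynomial.coeff d p ≠ 0 := MvPolynomial.mem_support_iff.1 hd
  have hdeg : ∑ i, d i = j := by
    have h := hp hd'
    rw [← Finsupp.degree_eq_sum]
    rw [Finsupp.degree_eq_weight_one]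
    exact h
  have hprod : ∏ i, ((c • x) i) ^ d i = c ^ j * ∏ i, (x i) ^ d i := by
    rw [← hdeg, ← Finset.prod_pow_eq_pow_sum, ← Finset.prod_mul_distrib]
    refine Finset.prod_congr rfl (fun i _ => ?_)
    rw [PiLp.smul_apply, smul_eq_mul, mul_pow]
  rw [hprod]
  ring

theorem r3_fderiv_eq (p : MvPolynomial (Fin n) ℝ) :
    fderiv ℝ (pfun p) = fun y : E n => r3_D p y :=
  funext (fun y => (r3_hasFDerivAt p y).fderiv)

theorem r3_hasFDerivAt2 (p : MvPolynomial (Fin n) ℝ) (x : E n) :
    HasFDerivAt (fun y : E n => r3_D p y)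
      (∑ i, (r3_D (MvPolynomial.pderiv i p) x).smulRight
        (EuclideanSpace.proj i : E n →L[ℝ] ℝ)) x := by
  have h : (fun y : E n => r3_D p y)
      = fun y => ∑ i, pfun (MvPolynomial.pderiv i p) y • (EuclideanSpace.proj i : E n →L[ℝ] ℝ) :=
    rfl
  rw [h]
  exact HasFDerivAt.fun_sum
    (fun i _ => (r3_hasFDerivAt (MvPolynomial.pderiv i p) x).smul_const
      (EuclideanSpace.proj i : E n →L[ℝ] ℝ))

theorem r3_fderiv2 (p : MvPolynomial (Fin n) ℝ) (x u w : E n) :
    fderiv ℝ (fderiv ℝ (pfun p)) x u w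
      = ∑ i, (∑ k, u k * pfun (MvPolynomial.pderiv k (MvPolynomial.pderiv i p)) x) * w i := by
  rw [r3_fderiv_eq, (r3_hasFDerivAt2 p x).fderiv]
  simp only [sum_apply, ContinuousLinearMap.smulRight_apply,
    smul_apply, smul_eq_mul, r3_D_apply, r3_proj_apply]

theorem r3_e_apply (m i : Fin n) : (e m : E n) i = if i = m then 1 else 0 := by
  unfold e
  simp

theorem r3_trace (p : MvPolynomial (Fin n) ℝ) (x : E n) :
    ∑ m, fderiv ℝ (fderiv ℝ (pfun p)) x (e m) (e m) = pfun (lap p) x := by
  unfold lap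
  rw [r3_pfun_sum]
  refine Finset.sum_congr rfl (fun m _ => ?_)
  rw [r3_fderiv2]
  simp only [r3_e_apply]
  rw [Finset.sum_eq_single m]
  · rw [if_pos rfl, mul_one, Finset.sum_eq_single m]
    · rw [if_pos rfl, one_mul]
    · intro k _ hk
      rw [if_neg hk, zero_mul]
    · intro hm
      exact (hm (Finset.mem_univ m)).elim
  · intro i _ hi
    rw [if_neg hi, mul_zero]
  · intro hm
    exact (hm (Finset.mem_univ m)).elim

theorem r3_euler {p : MvPolynomial (Fin n) ℝ} {j : ℕ} (hp : p.IsHomogeneous j) (x : E n) :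
    ∑ i, x i * pfun (MvPolynomial.pderiv i p) x = (j : ℝ) * pfun p x := by
  have h := congrArg (fun q => pfun q x) hp.sum_X_mul_pderiv
  simp only [r3_pfun_sum, r3_pfun_mul, r3_pfun_X, r3_pfun_nsmul] at h
  exact h

/-- a homogeneous harmonic polynomial of degree `j` is an eigenfunction of the spherical
Laplacian with eigenvalue `-j (j + n - 2)` -/
theorem pfun_harmonic_eig {p : MvPolynomial (Fin n) ℝ} {j : ℕ} (hp : p.IsHomogeneous j)
    (hlap : lap p = 0) (x : E n) :
    ‖x‖ ^ 2 * ∑ i, fderiv ℝ (fderiv ℝ (pfun p)) x (e i) (e i)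
      - fderiv ℝ (fderiv ℝ (pfun p)) x x x - ((n : ℝ) - 1) * fderiv ℝ (pfun p) x x
      = -((j : ℝ) * (j + n - 2)) * pfun p x := by
  rw [r3_trace, hlap, r3_pfun_zero, mul_zero, zero_sub]
  have h1 : fderiv ℝ (pfun p) x x = (j : ℝ) * pfun p x := by
    rw [pfun_fderiv]
    exact r3_euler hp x
  have h2 : fderiv ℝ (fderiv ℝ (pfun p)) x x x = (j : ℝ) * ((j : ℝ) - 1) * pfun p x := by
    rw [r3_fderiv2]
    have h3 : ∀ i, ∑ k, x k * pfun (MvPolynomial.pderiv k (MvPolynomial.pderiv i p)) x
        = ((j - 1 : ℕ) : ℝ) * pfun (MvPolynomial.pderiv i p) x :=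
      fun i => r3_euler (hp.pderiv) x
    simp_rw [h3]
    have h4 : ∑ i, ((j - 1 : ℕ) : ℝ) * pfun (MvPolynomial.pderiv i p) x * x i
        = ((j - 1 : ℕ) : ℝ) * ((j : ℝ) * pfun p x) := by
      rw [← r3_euler hp x, Finset.mul_sum]
      exact Finset.sum_congr rfl (fun i _ => by ring)
    rw [h4]
    rcases j with _ | j
    · simp
    · have hj : ((j + 1 - 1 : ℕ) : ℝ) = (j : ℝ) := by
        rw [Nat.add_sub_cancel]
      rw [hj]
      push_cast
      ring
  rw [h1, h2]
  ring

end Vale.Agent.H60.Rot
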