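import Vale.Agent.H60.Rot.Defs

/-!
# Rotations in coordinate planes (TASK R4)

Sketch.  With `P = prjL i j`, `J = genL i j` and `i ≠ j`: `J (J x) = -P x`, `J (P x) = J x`,
`P (J x) = J x`, `P (P x) = P x` (check on coordinates with `EuclideanSpace.single_apply`, or
`PiLp.ext`).  `rotL i j t x = x + (cos t - 1) • P x + sin t • J x`; in coordinates the `i`-th
entry is `cos t * x i - sin t * x j`, the `j`-th is `sin t * x i + cos t * x j`, the others are
unchanged, so the norm is preserved (`EuclideanSpace.real_norm_sq_eq`).  `genL j i = -genL i j`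
and `prjL j i = prjL i j`, so `rotL j i t = rotL i j (-t)` is the inverse.  Measure preservation:
a linear isometry of a finite-dimensional space is a linear isometry equivalence
(`LinearIsometry.toLinearIsometryEquiv`), then `LinearIsometryEquiv.measurePreserving`.
-/

namespace Vale.Agent.H60.Rot

open MeasureTheory

variable {n : ℕ}

theorem r4_genL_apply (i j : Fin n) (x : E n) (k : Fin n) :
    genL i j x k = (if k = j then x i else 0) - (if k = i then x j else 0) := by
  simp [genL, e]

theorem r4_prjL_apply (i j : Fin n) (x : E n) (k : Fin n) :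
    prjL i j x k = (if k = i then x i else 0) + (if k = j then x j else 0) := by
  simp [prjL, e]

theorem r4_rotL_apply (i j : Fin n) (t : ℝ) (x : E n) (k : Fin n) :
    rotL i j t x k = x k + (Real.cos t - 1) * ((if k = i then x i else 0)
      + (if k = j then x j else 0))
      + Real.sin t * ((if k = j then x i else 0) - (if k = i then x j else 0)) := by
  simp [rotL, r4_genL_apply, r4_prjL_apply]

theorem r4_rotL_eq (i j : Fin n) (t : ℝ) (x : E n) :
    rotL i j t x = x + (Real.cos t - 1) • prjL i j x + Real.sin t • genL i j x := by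
  simp [rotL]

theorem genL_swap (i j : Fin n) : genL j i = -genL i j := by
  unfold genL
  rw [neg_sub]

theorem rotL_zero (i j : Fin n) : rotL i j 0 = ContinuousLinearMap.id ℝ (E n) := by
  ext x k
  simp [rotL]

theorem norm_rotL {i j : Fin n} (hij : i ≠ j) (t : ℝ) (x : E n) : ‖rotL i j t x‖ = ‖x‖ := by
  have hji : j ≠ i := hij.symm
  have hsq : ‖rotL i j t x‖ ^ 2 = ‖x‖ ^ 2 := by
    rw [EuclideanSpace.real_norm_sq_eq, EuclideanSpace.real_norm_sq_eq]
    have hcs := Real.cos_sq_add_sin_sq t
    have key : ∀ k : Fin n, (rotL i j t x k) ^ 2 - (x k) ^ 2 =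
        (if k = i then (Real.cos t * x i - Real.sin t * x j) ^ 2 - (x i) ^ 2 else 0)
        + (if k = j then (Real.sin t * x i + Real.cos t * x j) ^ 2 - (x j) ^ 2 else 0) := by
      intro k
      rw [r4_rotL_apply]
      by_cases hki : k = i
      · subst hki
        simp [hij]
        ring
      · by_cases hkj : k = j
        · subst hkj
          simp [hji]
          ring
        · simp [hki, hkj]
    have hsum : ∑ k, ((rotL i j t x k) ^ 2 - (x k) ^ 2) = 0 := by
      rw [Finset.sum_congr rfl (fun k _ => key k), Finset.sum_add_distrib]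
      simp only [Finset.sum_ite_eq', Finset.mem_univ, if_true]
      nlinarith [hcs]
    rw [Finset.sum_sub_distrib] at hsum
    linarith
  have h1 : 0 ≤ ‖rotL i j t x‖ := norm_nonneg _
  have h2 : 0 ≤ ‖x‖ := norm_nonneg _
  nlinarith [hsq, h1, h2, sq_nonneg (‖rotL i j t x‖ - ‖x‖), sq_nonneg (‖rotL i j t x‖ + ‖x‖)]

theorem rotL_inv {i j : Fin n} (hij : i ≠ j) (t : ℝ) (x : E n) :
    rotL j i t (rotL i j t x) = x := by
  have hji : j ≠ i := hij.symm
  have hcs := Real.cos_sq_add_sin_sq t
  ext k
  rw [r4_rotL_apply]
  simp only [r4_rotL_apply]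
  by_cases hki : k = i
  · simp only [hki, hij, hji, if_true, if_false]
    linear_combination (x i) * hcs
  · by_cases hkj : k = j
    · simp only [hkj, hij, hji, if_true, if_false]
      linear_combination (x j) * hcs
    · simp [hki, hkj]

theorem hasDerivAt_rotL {i j : Fin n} (hij : i ≠ j) (t : ℝ) (x : E n) :
    HasDerivAt (fun t => rotL i j t x) (genL i j (rotL i j t x)) t := by
  have hji : j ≠ i := hij.symm
  have h1 : HasDerivAt (fun t : ℝ => x + (Real.cos t - 1) • prjL i j x + Real.sin t • genL i j x)
      ((-Real.sin t) • prjL i j x + Real.cos t • genL i j x) t := by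
    have ha : HasDerivAt (fun t : ℝ => (Real.cos t - 1) • prjL i j x)
        ((-Real.sin t) • prjL i j x) t :=
      ((Real.hasDerivAt_cos t).sub_const 1).smul_const (prjL i j x)
    have hb : HasDerivAt (fun t : ℝ => Real.sin t • genL i j x)
        (Real.cos t • genL i j x) t :=
      (Real.hasDerivAt_sin t).smul_const (genL i j x)
    exact (ha.const_add x).add hb
  have h2 : (fun t => rotL i j t x) =
      (fun t : ℝ => x + (Real.cos t - 1) • prjL i j x + Real.sin t • genL i j x) := by
    funext s
    exact r4_rotL_eq i j s x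
  have h3 : genL i j (rotL i j t x) = (-Real.sin t) • prjL i j x + Real.cos t • genL i j x := by
    ext k
    rw [r4_genL_apply]
    simp only [r4_rotL_apply, PiLp.add_apply, PiLp.smul_apply, smul_eq_mul, r4_genL_apply,
      r4_prjL_apply]
    by_cases hki : k = i
    · simp only [hki, hij, hji, if_true, if_false]
      ring
    · by_cases hkj : k = j
      · simp only [hkj, hij, hji, if_true, if_false]
        ring
      · simp [hki, hkj]
  rw [h2, h3]
  exact h1

theorem continuous_rotL (i j : Fin n) : Continuous (fun q : ℝ × E n => rotL i j q.1 q.2) := by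
  have h : (fun q : ℝ × E n => rotL i j q.1 q.2) =
      (fun q : ℝ × E n => q.2 + (Real.cos q.1 - 1) • prjL i j q.2
        + Real.sin q.1 • genL i j q.2) := by
    funext q
    exact r4_rotL_eq i j q.1 q.2
  rw [h]
  fun_prop

/-- the rotation as a linear isometry equivalence -/
noncomputable def r4_equiv {i j : Fin n} (hij : i ≠ j) (t : ℝ) : E n ≃ₗᵢ[ℝ] E n where
  toFun := rotL i j t
  map_add' := (rotL i j t).map_add
  map_smul' := (rotL i j t).map_smul
  invFun := rotL j i t
  left_inv := rotL_inv hij t
  right_inv := rotL_inv hij.symm t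
  norm_map' := norm_rotL hij t

theorem measurePreserving_rotL {i j : Fin n} (hij : i ≠ j) (t : ℝ) :
    MeasurePreserving (rotL i j t) (volume : Measure (E n)) volume :=
  (r4_equiv hij t).measurePreserving

end Vale.Agent.H60.Rot
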