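import Vale.Agent.H60.Rot.Ball
import Vale.Agent.H60.Rot.Rotation
import Vale.Agent.H60.Rot.PairSum
import Vale.Agent.H60.Rot.PolyCalc
import Vale.Agent.H60.Radial.Growth

/-!
# Radial modes of harmonic functions on rotationally symmetric manifolds

For a function `u` on `ℝ^n` and a homogeneous harmonic polynomial `P` of degree `j`, the mode
`a(r) = ∫_S u(r θ) P(θ) dθ` satisfies the radial mode equation when `u` is harmonic for the
metric `dr^2 + f(r)^2 g_S`.  The sphere integral is realised as the integral over the unit ball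
of the radial projection; the spherical Laplacian is shown to be symmetric by differentiating the
rotation invariance of the sphere integral twice.
-/

namespace Vale.Agent.H60.Rot

open MeasureTheory Set

variable {n : ℕ}

/-- the sphere integral, realised as a ball integral of the radial projection -/
noncomputable def sph (K : E n → ℝ) : ℝ := ∫ x in Metric.ball (0 : E n) 1, K (theta x)

theorem theta_cases (x : E n) : ‖theta x‖ = 1 ∨ theta x = 0 := by
  by_cases hx : x = 0
  · right
    rw [hx, theta_zero]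
  · left
    exact norm_theta hx

theorem sph_congr {K₁ K₂ : E n → ℝ} (h : ∀ q : E n, ‖q‖ = 1 ∨ q = 0 → K₁ q = K₂ q) :
    sph K₁ = sph K₂ := by
  unfold sph
  exact integral_congr_ae (Filter.Eventually.of_forall (fun x => h _ (theta_cases x)))

theorem sph_zero : sph (fun _ : E n => (0 : ℝ)) = 0 := by
  unfold sph
  simp

theorem sph_add {K₁ K₂ : E n → ℝ} (h₁ : Continuous K₁) (h₂ : Continuous K₂) :
    sph (fun q => K₁ q + K₂ q) = sph K₁ + sph K₂ := by
  unfold sph
  exact integral_add (integrableOn_theta h₁) (integrableOn_theta h₂)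

theorem sph_const_mul (c : ℝ) (K : E n → ℝ) : sph (fun q => c * K q) = c * sph K := by
  unfold sph
  exact integral_const_mul c _

theorem sph_sum {ι : Type*} (s : Finset ι) {K : ι → E n → ℝ} (hK : ∀ l ∈ s, Continuous (K l)) :
    sph (fun q => ∑ l ∈ s, K l q) = ∑ l ∈ s, sph (K l) := by
  unfold sph
  exact integral_finsetSum s (fun l hl => integrableOn_theta (hK l hl))

theorem sph_comp (L : E n →L[ℝ] E n) (hL : ∀ x, ‖L x‖ = ‖x‖)
    (hmp : MeasurePreserving L (volume : Measure (E n)) volume) (K : E n → ℝ) :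
    sph (fun q => K (L q)) = sph K :=
  ball_integral_comp L hL hmp K

theorem hasDerivAt_sph {Ψ Ψ' : ℝ → E n → ℝ}
    (hΨ : Continuous (fun p : ℝ × E n => Ψ p.1 p.2))
    (hΨ' : Continuous (fun p : ℝ × E n => Ψ' p.1 p.2))
    (hd : ∀ t q, HasDerivAt (fun t => Ψ t q) (Ψ' t q) t) (t₀ : ℝ) :
    HasDerivAt (fun t => sph (Ψ t)) (sph (Ψ' t₀)) t₀ :=
  hasDerivAt_ball_integral hΨ hΨ' hd t₀

theorem abs_sph_le {K : E n → ℝ} {C : ℝ}
    (hC : ∀ q ∈ Metric.closedBall (0 : E n) 1, |K q| ≤ C) :
    |sph K| ≤ C * (volume : Measure (E n)).real (Metric.ball 0 1) :=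
  abs_ball_integral_le hC

/-! ### Radial derivatives -/

theorem contDiff_fderiv {w : E n → ℝ} (hw : ContDiff ℝ 2 w) : ContDiff ℝ 1 (fderiv ℝ w) :=
  hw.fderiv_right (by norm_num)

theorem continuous_fderiv1 {w : E n → ℝ} (hw : ContDiff ℝ 2 w) : Continuous (fderiv ℝ w) :=
  hw.continuous_fderiv (by norm_num)

theorem continuous_fderiv2 {w : E n → ℝ} (hw : ContDiff ℝ 2 w) :
    Continuous (fderiv ℝ (fderiv ℝ w)) :=
  (contDiff_fderiv hw).continuous_fderiv (by norm_num)

theorem differentiable0 {w : E n → ℝ} (hw : ContDiff ℝ 2 w) : Differentiable ℝ w :=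
  hw.differentiable (by norm_num)

theorem differentiable1 {w : E n → ℝ} (hw : ContDiff ℝ 2 w) : Differentiable ℝ (fderiv ℝ w) :=
  (contDiff_fderiv hw).differentiable (by norm_num)

theorem hasDerivAt_ray (q : E n) (r : ℝ) : HasDerivAt (fun r : ℝ => r • q) q r := by
  have h := (hasDerivAt_id r).smul_const q
  simpa using h

theorem hasDerivAt_radial {w : E n → ℝ} (hw : ContDiff ℝ 2 w) {Y : E n → ℝ} (hY : Continuous Y)
    (r : ℝ) :
    HasDerivAt (fun r => sph (fun q => w (r • q) * Y q))
      (sph (fun q => fderiv ℝ w (r • q) q * Y q)) r := by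
  refine hasDerivAt_sph (Ψ := fun r q => w (r • q) * Y q)
    (Ψ' := fun r q => fderiv ℝ w (r • q) q * Y q) ?_ ?_ ?_ r
  · exact (hw.continuous.comp (continuous_fst.smul continuous_snd)).mul (hY.comp continuous_snd)
  · exact (((continuous_fderiv1 hw).comp (continuous_fst.smul continuous_snd)).clm_apply
      continuous_snd).mul (hY.comp continuous_snd)
  · intro t q
    have h1 : HasDerivAt (fun r => w (r • q)) (fderiv ℝ w (t • q) q) t :=
      ((differentiable0 hw) (t • q)).hasFDerivAt.comp_hasDerivAt t (hasDerivAt_ray q t)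
    exact h1.mul_const (Y q)

theorem hasDerivAt_radial2 {w : E n → ℝ} (hw : ContDiff ℝ 2 w) {Y : E n → ℝ}
    (hY : Continuous Y) (r : ℝ) :
    HasDerivAt (fun r => sph (fun q => fderiv ℝ w (r • q) q * Y q))
      (sph (fun q => fderiv ℝ (fderiv ℝ w) (r • q) q q * Y q)) r := by
  refine hasDerivAt_sph (Ψ := fun r q => fderiv ℝ w (r • q) q * Y q)
    (Ψ' := fun r q => fderiv ℝ (fderiv ℝ w) (r • q) q q * Y q) ?_ ?_ ?_ r
  · exact (((continuous_fderiv1 hw).comp (continuous_fst.smul continuous_snd)).clm_apply
      continuous_snd).mul (hY.comp continuous_snd)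
  · exact ((((continuous_fderiv2 hw).comp (continuous_fst.smul continuous_snd)).clm_apply
      continuous_snd).clm_apply continuous_snd).mul (hY.comp continuous_snd)
  · intro t q
    have h2 : HasDerivAt (fun r => fderiv ℝ w (r • q)) (fderiv ℝ (fderiv ℝ w) (t • q) q) t :=
      ((differentiable1 hw) (t • q)).hasFDerivAt.comp_hasDerivAt t (hasDerivAt_ray q t)
    have h3 : HasDerivAt (fun r => fderiv ℝ w (r • q) q)
        (fderiv ℝ (fderiv ℝ w) (t • q) q q) t := by
      have h4 := h2.clm_apply (hasDerivAt_const t q)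
      simpa using h4
    exact h3.mul_const (Y q)

/-! ### Derivatives along rotations -/

/-- the derivative of `w` along the rotation in the plane `(i, j)` -/
noncomputable def rot1 (w : E n → ℝ) (i j : Fin n) (p : E n) : ℝ :=
  fderiv ℝ w p (genL i j p)

/-- the second derivative of `w` along the rotation in the plane `(i, j)` -/
noncomputable def rot2 (w : E n → ℝ) (i j : Fin n) (p : E n) : ℝ :=
  fderiv ℝ (fderiv ℝ w) p (genL i j p) (genL i j p) + fderiv ℝ w p (genL i j (genL i j p))

theorem continuous_rot1 {w : E n → ℝ} (hw : ContDiff ℝ 2 w) (i j : Fin n) :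
    Continuous (rot1 w i j) :=
  (continuous_fderiv1 hw).clm_apply (genL i j).continuous

theorem continuous_rot2 {w : E n → ℝ} (hw : ContDiff ℝ 2 w) (i j : Fin n) :
    Continuous (rot2 w i j) :=
  (((continuous_fderiv2 hw).clm_apply (genL i j).continuous).clm_apply
    (genL i j).continuous).add
    ((continuous_fderiv1 hw).clm_apply ((genL i j).continuous.comp (genL i j).continuous))

theorem rot2_swap (w : E n → ℝ) (i j : Fin n) (p : E n) : rot2 w j i p = rot2 w i j p := by
  unfold rot2
  rw [genL_swap i j]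
  simp

theorem hasDerivAt_rot0 {w : E n → ℝ} (hw : ContDiff ℝ 2 w) {i j : Fin n} (hij : i ≠ j)
    (t : ℝ) (p : E n) :
    HasDerivAt (fun t => w (rotL i j t p)) (rot1 w i j (rotL i j t p)) t :=
  ((differentiable0 hw) (rotL i j t p)).hasFDerivAt.comp_hasDerivAt t (hasDerivAt_rotL hij t p)

theorem hasDerivAt_rot1 {w : E n → ℝ} (hw : ContDiff ℝ 2 w) {i j : Fin n} (hij : i ≠ j)
    (t : ℝ) (p : E n) :
    HasDerivAt (fun t => rot1 w i j (rotL i j t p)) (rot2 w i j (rotL i j t p)) t := by
  have hc := hasDerivAt_rotL hij t p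
  have h1 : HasDerivAt (fun t => fderiv ℝ w (rotL i j t p))
      (fderiv ℝ (fderiv ℝ w) (rotL i j t p) (genL i j (rotL i j t p))) t :=
    ((differentiable1 hw) (rotL i j t p)).hasFDerivAt.comp_hasDerivAt t hc
  have h2 : HasDerivAt (fun t => genL i j (rotL i j t p))
      (genL i j (genL i j (rotL i j t p))) t :=
    (genL i j).hasFDerivAt.comp_hasDerivAt t hc
  exact h1.clm_apply h2

theorem hasDerivAt_sph_rot0 {w : E n → ℝ} (hw : ContDiff ℝ 2 w) {i j : Fin n} (hij : i ≠ j)
    {G : E n → ℝ} (hG : Continuous G) {S : E n → E n} (hS : Continuous S) (t : ℝ) :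
    HasDerivAt (fun t => sph (fun q => w (rotL i j t (S q)) * G q))
      (sph (fun q => rot1 w i j (rotL i j t (S q)) * G q)) t := by
  have hrot : Continuous (fun p : ℝ × E n => rotL i j p.1 (S p.2)) :=
    (continuous_rotL i j).comp (continuous_fst.prodMk (hS.comp continuous_snd))
  refine hasDerivAt_sph (Ψ := fun t q => w (rotL i j t (S q)) * G q)
    (Ψ' := fun t q => rot1 w i j (rotL i j t (S q)) * G q) ?_ ?_ ?_ t
  · exact (hw.continuous.comp hrot).mul (hG.comp continuous_snd)
  · exact ((continuous_rot1 hw i j).comp hrot).mul (hG.comp continuous_snd)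
  · intro t q
    exact (hasDerivAt_rot0 hw hij t (S q)).mul_const (G q)

theorem hasDerivAt_sph_rot1 {w : E n → ℝ} (hw : ContDiff ℝ 2 w) {i j : Fin n} (hij : i ≠ j)
    {G : E n → ℝ} (hG : Continuous G) {S : E n → E n} (hS : Continuous S) (t : ℝ) :
    HasDerivAt (fun t => sph (fun q => rot1 w i j (rotL i j t (S q)) * G q))
      (sph (fun q => rot2 w i j (rotL i j t (S q)) * G q)) t := by
  have hrot : Continuous (fun p : ℝ × E n => rotL i j p.1 (S p.2)) :=
    (continuous_rotL i j).comp (continuous_fst.prodMk (hS.comp continuous_snd))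
  refine hasDerivAt_sph (Ψ := fun t q => rot1 w i j (rotL i j t (S q)) * G q)
    (Ψ' := fun t q => rot2 w i j (rotL i j t (S q)) * G q) ?_ ?_ ?_ t
  · exact ((continuous_rot1 hw i j).comp hrot).mul (hG.comp continuous_snd)
  · exact ((continuous_rot2 hw i j).comp hrot).mul (hG.comp continuous_snd)
  · intro t q
    exact (hasDerivAt_rot1 hw hij t (S q)).mul_const (G q)

/-- the second derivative along a rotation is symmetric for the sphere integral -/
theorem sph_rot2_symm {u Y : E n → ℝ} (hu : ContDiff ℝ 2 u) (hY : ContDiff ℝ 2 Y) {i j : Fin n}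
    (hij : i ≠ j) (r : ℝ) :
    sph (fun q => rot2 u i j (r • q) * Y (r • q))
      = sph (fun q => u (r • q) * rot2 Y i j (r • q)) := by
  have hS : Continuous (fun q : E n => r • q) := continuous_const_smul r
  have hGY : Continuous (fun q : E n => Y (r • q)) := hY.continuous.comp hS
  have hGu : Continuous (fun q : E n => u (r • q)) := hu.continuous.comp hS
  -- the two expressions of the rotated integral
  have hΦ : ∀ t : ℝ, sph (fun q => u (rotL i j t (r • q)) * Y (r • q))
      = sph (fun q => Y (rotL j i t (r • q)) * u (r • q)) := by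
    intro t
    have h1 := sph_comp (rotL j i t) (norm_rotL hij.symm t) (measurePreserving_rotL hij.symm t)
      (fun q => u (rotL i j t (r • q)) * Y (r • q))
    rw [← h1]
    refine sph_congr (fun q _ => ?_)
    show u (rotL i j t (r • rotL j i t q)) * Y (r • rotL j i t q)
      = Y (rotL j i t (r • q)) * u (r • q)
    rw [← _root_.map_smul, rotL_inv hij.symm t (r • q), mul_comm]
  have d1 := fun t => hasDerivAt_sph_rot0 hu hij hGY hS t
  have d2 := hasDerivAt_sph_rot1 hu hij hGY hS 0
  have d1' := fun t => hasDerivAt_sph_rot0 hY hij.symm hGu hS t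
  have d2' := hasDerivAt_sph_rot1 hY hij.symm hGu hS 0
  have e0 : (fun t => sph (fun q => u (rotL i j t (r • q)) * Y (r • q)))
      = fun t => sph (fun q => Y (rotL j i t (r • q)) * u (r • q)) := funext hΦ
  have e1 : (fun t => sph (fun q => rot1 u i j (rotL i j t (r • q)) * Y (r • q)))
      = fun t => sph (fun q => rot1 Y j i (rotL j i t (r • q)) * u (r • q)) := by
    funext t
    have h2 := d1 t
    rw [e0] at h2
    exact h2.unique (d1' t)
  rw [e1] at d2
  have e2 := d2.unique d2'
  have e3 : (fun q : E n => rot2 u i j (rotL i j 0 (r • q)) * Y (r • q))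
      = fun q => rot2 u i j (r • q) * Y (r • q) := by
    funext q
    rw [rotL_zero]
    rfl
  have e4 : (fun q : E n => rot2 Y j i (rotL j i 0 (r • q)) * u (r • q))
      = fun q => u (r • q) * rot2 Y i j (r • q) := by
    funext q
    rw [rotL_zero, rot2_swap, mul_comm]
    rfl
  rw [e3, e4] at e2
  exact e2

/-! ### The spherical Laplacian -/

/-- the spherical Laplacian (times `|p|^2`) in Cartesian form -/
noncomputable def Lam (w : E n → ℝ) (p : E n) : ℝ :=
  ‖p‖ ^ 2 * ∑ i, fderiv ℝ (fderiv ℝ w) p (e i) (e i) - fderiv ℝ (fderiv ℝ w) p p p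
    - ((n : ℝ) - 1) * fderiv ℝ w p p

theorem continuous_Lam {w : E n → ℝ} (hw : ContDiff ℝ 2 w) : Continuous (Lam w) := by
  have h2 := continuous_fderiv2 hw
  have h1 := continuous_fderiv1 hw
  unfold Lam
  refine Continuous.sub (Continuous.sub (Continuous.mul (continuous_norm.pow 2) ?_) ?_) ?_
  · exact continuous_finsetSum _ (fun i _ =>
      (h2.clm_apply continuous_const).clm_apply continuous_const)
  · exact (h2.clm_apply continuous_id).clm_apply continuous_id
  · exact continuous_const.mul (h1.clm_apply continuous_id)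

theorem sum_rot2 {w : E n → ℝ} (hw : ContDiff ℝ 2 w) (p : E n) :
    ∑ i : Fin n, ∑ j : Fin n, (if i = j then (0 : ℝ) else rot2 w i j p) = 2 * Lam w p := by
  have hsymm : ∀ a b : E n, fderiv ℝ (fderiv ℝ w) p a b = fderiv ℝ (fderiv ℝ w) p b a := by
    intro a b
    have h := (hw.contDiffAt (x := p)).isSymmSndFDerivAt (by simp)
    exact h a b
  exact pair_sum_identity (fderiv ℝ (fderiv ℝ w) p) hsymm (fderiv ℝ w p) p

/-- the spherical Laplacian is symmetric for the sphere integral -/
theorem sph_Lam_symm {u Y : E n → ℝ} (hu : ContDiff ℝ 2 u) (hY : ContDiff ℝ 2 Y) (r : ℝ) :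
    sph (fun q => Lam u (r • q) * Y (r • q)) = sph (fun q => u (r • q) * Lam Y (r • q)) := by
  have hS : Continuous (fun q : E n => r • q) := continuous_const_smul r
  have hGY : Continuous (fun q : E n => Y (r • q)) := hY.continuous.comp hS
  have hGu : Continuous (fun q : E n => u (r • q)) := hu.continuous.comp hS
  -- the pair integrands
  have hK : ∀ i j : Fin n, Continuous (fun q : E n =>
      if i = j then (0 : ℝ) else rot2 u i j (r • q) * Y (r • q)) := by
    intro i j
    by_cases hij : i = j
    · simp only [hij, if_true]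
      exact continuous_const
    · simp only [hij, if_false]
      exact ((continuous_rot2 hu i j).comp hS).mul hGY
  have hK' : ∀ i j : Fin n, Continuous (fun q : E n =>
      if i = j then (0 : ℝ) else u (r • q) * rot2 Y i j (r • q)) := by
    intro i j
    by_cases hij : i = j
    · simp only [hij, if_true]
      exact continuous_const
    · simp only [hij, if_false]
      exact hGu.mul ((continuous_rot2 hY i j).comp hS)
  have hpair : ∀ i j : Fin n,
      sph (fun q : E n => if i = j then (0 : ℝ) else rot2 u i j (r • q) * Y (r • q))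
        = sph (fun q : E n => if i = j then (0 : ℝ) else u (r • q) * rot2 Y i j (r • q)) := by
    intro i j
    by_cases hij : i = j
    · simp only [hij, if_true]
    · simp only [hij, if_false]
      exact sph_rot2_symm hu hY hij r
  have e1 : sph (fun q => (2 * Lam u (r • q)) * Y (r • q))
      = ∑ i : Fin n, ∑ j : Fin n,
        sph (fun q : E n => if i = j then (0 : ℝ) else rot2 u i j (r • q) * Y (r • q)) := by
    have h1 : (fun q : E n => (2 * Lam u (r • q)) * Y (r • q))
        = fun q => ∑ i : Fin n, ∑ j : Fin n,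
          (if i = j then (0 : ℝ) else rot2 u i j (r • q) * Y (r • q)) := by
      funext q
      rw [← sum_rot2 hu (r • q), Finset.sum_mul]
      refine Finset.sum_congr rfl (fun i _ => ?_)
      rw [Finset.sum_mul]
      refine Finset.sum_congr rfl (fun j _ => ?_)
      split_ifs
      · rw [zero_mul]
      · rfl
    rw [h1, sph_sum Finset.univ (K := fun i q => ∑ j : Fin n,
      (if i = j then (0 : ℝ) else rot2 u i j (r • q) * Y (r • q)))
      (fun i _ => continuous_finsetSum _ (fun j _ => hK i j))]
    refine Finset.sum_congr rfl (fun i _ => ?_)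
    exact sph_sum Finset.univ (K := fun j q =>
      (if i = j then (0 : ℝ) else rot2 u i j (r • q) * Y (r • q))) (fun j _ => hK i j)
  have e2 : sph (fun q => u (r • q) * (2 * Lam Y (r • q)))
      = ∑ i : Fin n, ∑ j : Fin n,
        sph (fun q : E n => if i = j then (0 : ℝ) else u (r • q) * rot2 Y i j (r • q)) := by
    have h1 : (fun q : E n => u (r • q) * (2 * Lam Y (r • q)))
        = fun q => ∑ i : Fin n, ∑ j : Fin n,
          (if i = j then (0 : ℝ) else u (r • q) * rot2 Y i j (r • q)) := by
      funext q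
      rw [← sum_rot2 hY (r • q), Finset.mul_sum]
      refine Finset.sum_congr rfl (fun i _ => ?_)
      rw [Finset.mul_sum]
      refine Finset.sum_congr rfl (fun j _ => ?_)
      split_ifs
      · rw [mul_zero]
      · rfl
    rw [h1, sph_sum Finset.univ (K := fun i q => ∑ j : Fin n,
      (if i = j then (0 : ℝ) else u (r • q) * rot2 Y i j (r • q)))
      (fun i _ => continuous_finsetSum _ (fun j _ => hK' i j))]
    refine Finset.sum_congr rfl (fun i _ => ?_)
    exact sph_sum Finset.univ (K := fun j q =>
      (if i = j then (0 : ℝ) else u (r • q) * rot2 Y i j (r • q))) (fun j _ => hK' i j)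
  have e3 : sph (fun q => (2 * Lam u (r • q)) * Y (r • q))
      = sph (fun q => u (r • q) * (2 * Lam Y (r • q))) := by
    rw [e1, e2]
    exact Finset.sum_congr rfl (fun i _ => Finset.sum_congr rfl (fun j _ => hpair i j))
  have e4 : sph (fun q => (2 * Lam u (r • q)) * Y (r • q))
      = 2 * sph (fun q => Lam u (r • q) * Y (r • q)) := by
    rw [← sph_const_mul]
    refine sph_congr (fun q _ => ?_)
    ring
  have e5 : sph (fun q => u (r • q) * (2 * Lam Y (r • q)))
      = 2 * sph (fun q => u (r • q) * Lam Y (r • q)) := by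
    rw [← sph_const_mul]
    refine sph_congr (fun q _ => ?_)
    ring
  rw [e4, e5] at e3
  linarith

/-- pairing the spherical Laplacian of `u` with a homogeneous harmonic polynomial -/
theorem sph_Lam_eig {u : E n → ℝ} (hu : ContDiff ℝ 2 u) {P : MvPolynomial (Fin n) ℝ} {j : ℕ}
    (hP : P.IsHomogeneous j) (hlap : lap P = 0) {r : ℝ} (hr : 0 < r) :
    sph (fun q => Lam u (r • q) * pfun P q)
      = -((j : ℝ) * (j + n - 2)) * sph (fun q => u (r • q) * pfun P q) := by
  have h1 := sph_Lam_symm hu (pfun_contDiff P) r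
  have e1 : sph (fun q => Lam u (r • q) * pfun P (r • q))
      = r ^ j * sph (fun q => Lam u (r • q) * pfun P q) := by
    rw [← sph_const_mul]
    refine sph_congr (fun q _ => ?_)
    rw [pfun_homogeneous hP]
    ring
  have e2 : sph (fun q => u (r • q) * Lam (pfun P) (r • q))
      = r ^ j * (-((j : ℝ) * (j + n - 2)) * sph (fun q => u (r • q) * pfun P q)) := by
    rw [← sph_const_mul, ← sph_const_mul]
    refine sph_congr (fun q _ => ?_)
    have h2 : Lam (pfun P) (r • q) = -((j : ℝ) * (j + n - 2)) * pfun P (r • q) :=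
      pfun_harmonic_eig hP hlap (r • q)
    rw [h2, pfun_homogeneous hP]
    ring
  rw [e1, e2] at h1
  have hrj : r ^ j ≠ 0 := pow_ne_zero _ hr.ne'
  exact mul_left_cancel₀ hrj h1

/-! ### The mode equation -/

/-- the radial mode equation for the modes of a harmonic function -/
theorem mode_ode {f : ℝ → ℝ} {u : E n → ℝ} (hu : ContDiff ℝ 2 u)
    (hpde : ∀ x : E n, x ≠ 0 → fderiv ℝ (fderiv ℝ u) x x x / ‖x‖ ^ 2
      + ((n : ℝ) - 1) * (deriv f ‖x‖ / f ‖x‖) * (fderiv ℝ u x x / ‖x‖)
      + (1 / f ‖x‖ ^ 2) * Lam u x = 0)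
    {P : MvPolynomial (Fin n) ℝ} {j : ℕ} (hP : P.IsHomogeneous j) (hlap : lap P = 0) {r : ℝ}
    (hr : 0 < r) :
    sph (fun q => fderiv ℝ (fderiv ℝ u) (r • q) q q * pfun P q)
      + ((n : ℝ) - 1) * (deriv f r / f r) * sph (fun q => fderiv ℝ u (r • q) q * pfun P q)
      - (j : ℝ) * (j + n - 2) * sph (fun q => u (r • q) * pfun P q) / f r ^ 2 = 0 := by
  have hS : Continuous (fun q : E n => r • q) := continuous_const_smul r
  have hYc : Continuous (pfun P) := (pfun_contDiff P).continuous
  have hc1 : Continuous (fun q : E n => fderiv ℝ (fderiv ℝ u) (r • q) q q * pfun P q) :=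
    ((((continuous_fderiv2 hu).comp hS).clm_apply continuous_id).clm_apply continuous_id).mul hYc
  have hc2 : Continuous (fun q : E n => fderiv ℝ u (r • q) q * pfun P q) :=
    (((continuous_fderiv1 hu).comp hS).clm_apply continuous_id).mul hYc
  have hc3 : Continuous (fun q : E n => Lam u (r • q) * pfun P q) :=
    ((continuous_Lam hu).comp hS).mul hYc
  set k : ℝ := ((n : ℝ) - 1) * (deriv f r / f r) with hk
  set c : ℝ := 1 / f r ^ 2 with hc
  have hzero : sph (fun q => fderiv ℝ (fderiv ℝ u) (r • q) q q * pfun P q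
      + (k * (fderiv ℝ u (r • q) q * pfun P q) + c * (Lam u (r • q) * pfun P q))) = 0 := by
    rw [← sph_zero (n := n)]
    refine sph_congr (fun q hq => ?_)
    rcases hq with hq | hq
    · have hx : r • q ≠ 0 := by
        intro h0
        have : ‖r • q‖ = 0 := by rw [h0, norm_zero]
        rw [norm_smul, hq, mul_one, Real.norm_of_nonneg hr.le] at this
        exact hr.ne' this
      have hnorm : ‖r • q‖ = r := by
        rw [norm_smul, hq, mul_one, Real.norm_of_nonneg hr.le]
      have h := hpde (r • q) hx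
      rw [hnorm] at h
      have e1 : fderiv ℝ (fderiv ℝ u) (r • q) (r • q) (r • q) / r ^ 2
          = fderiv ℝ (fderiv ℝ u) (r • q) q q := by
        rw [_root_.map_smul, _root_.map_smul]
        simp only [smul_apply, smul_eq_mul]
        field_simp
      have e2 : fderiv ℝ u (r • q) (r • q) / r = fderiv ℝ u (r • q) q := by
        rw [_root_.map_smul, smul_eq_mul]
        field_simp
      rw [e1, e2] at h
      have : fderiv ℝ (fderiv ℝ u) (r • q) q q * pfun P q
          + (k * (fderiv ℝ u (r • q) q * pfun P q) + c * (Lam u (r • q) * pfun P q))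
          = (fderiv ℝ (fderiv ℝ u) (r • q) q q + k * fderiv ℝ u (r • q) q
            + c * Lam u (r • q)) * pfun P q := by ring
      rw [this, h, zero_mul]
    · rw [hq]
      simp [Lam]
  have hcK2 : Continuous (fun q : E n => k * (fderiv ℝ u (r • q) q * pfun P q)) :=
    continuous_const.mul hc2
  have hcK3 : Continuous (fun q : E n => c * (Lam u (r • q) * pfun P q)) :=
    continuous_const.mul hc3
  have hcK23 : Continuous (fun q : E n => k * (fderiv ℝ u (r • q) q * pfun P q)
      + c * (Lam u (r • q) * pfun P q)) := hcK2.add hcK3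
  have s1 : sph (fun q => fderiv ℝ (fderiv ℝ u) (r • q) q q * pfun P q
      + (k * (fderiv ℝ u (r • q) q * pfun P q) + c * (Lam u (r • q) * pfun P q)))
      = sph (fun q => fderiv ℝ (fderiv ℝ u) (r • q) q q * pfun P q)
        + sph (fun q => k * (fderiv ℝ u (r • q) q * pfun P q)
          + c * (Lam u (r • q) * pfun P q)) :=
    sph_add hc1 hcK23
  have s2 : sph (fun q => k * (fderiv ℝ u (r • q) q * pfun P q)
      + c * (Lam u (r • q) * pfun P q))
      = sph (fun q => k * (fderiv ℝ u (r • q) q * pfun P q))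
        + sph (fun q => c * (Lam u (r • q) * pfun P q)) :=
    sph_add hcK2 hcK3
  have s3 : sph (fun q => k * (fderiv ℝ u (r • q) q * pfun P q))
      = k * sph (fun q => fderiv ℝ u (r • q) q * pfun P q) := sph_const_mul k _
  have s4 : sph (fun q => c * (Lam u (r • q) * pfun P q))
      = c * sph (fun q => Lam u (r • q) * pfun P q) := sph_const_mul c _
  rw [s1, s2, s3, s4, sph_Lam_eig hu hP hlap hr] at hzero
  rw [← hzero, hc]
  ring

end Vale.Agent.H60.Rot
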