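import Mathlib

/-!
# Rotationally symmetric manifolds: basic definitions

`E n` is Euclidean space, `genL i j` the generator `x ↦ x_i e_j - x_j e_i` of the rotations in
the coordinate plane `(i, j)`, `rotL i j t` the rotation by the angle `t` in that plane,
`theta x = x / |x|` the radial projection, `pfun p` the polynomial function of a polynomial `p`
and `lap p` the Laplacian of a polynomial.
-/

namespace Vale.Agent.H60.Rot

/-- Euclidean space of dimension `n` -/
abbrev E (n : ℕ) := EuclideanSpace ℝ (Fin n)

variable {n : ℕ}

/-- the `i`-th standard basis vector -/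
noncomputable def e (i : Fin n) : E n := EuclideanSpace.single i (1 : ℝ)

/-- the generator `x ↦ x_i e_j - x_j e_i` of the rotations in the coordinate plane `(i, j)` -/
noncomputable def genL (i j : Fin n) : E n →L[ℝ] E n :=
  (EuclideanSpace.proj i : E n →L[ℝ] ℝ).smulRight (e j)
    - (EuclideanSpace.proj j : E n →L[ℝ] ℝ).smulRight (e i)

/-- the orthogonal projection `x ↦ x_i e_i + x_j e_j` onto the coordinate plane `(i, j)` -/
noncomputable def prjL (i j : Fin n) : E n →L[ℝ] E n :=
  (EuclideanSpace.proj i : E n →L[ℝ] ℝ).smulRight (e i)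
    + (EuclideanSpace.proj j : E n →L[ℝ] ℝ).smulRight (e j)

/-- the rotation by the angle `t` in the coordinate plane `(i, j)` -/
noncomputable def rotL (i j : Fin n) (t : ℝ) : E n →L[ℝ] E n :=
  ContinuousLinearMap.id ℝ (E n) + (Real.cos t - 1) • prjL i j + Real.sin t • genL i j

/-- the radial projection `x ↦ x / |x|` (and `0 ↦ 0`) -/
noncomputable def theta (x : E n) : E n := ‖x‖⁻¹ • x

/-- the polynomial function of a polynomial -/
noncomputable def pfun (p : MvPolynomial (Fin n) ℝ) (x : E n) : ℝ :=
  MvPolynomial.eval (fun i => x i) p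

/-- the Laplacian of a polynomial -/
noncomputable def lap (p : MvPolynomial (Fin n) ℝ) : MvPolynomial (Fin n) ℝ :=
  ∑ i, MvPolynomial.pderiv i (MvPolynomial.pderiv i p)

end Vale.Agent.H60.Rot
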