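import Mathlib

/-!
# The space of harmonic polynomials of bounded degree
-/

namespace Vale.Agent.H60.Rot

/-- the real vector space of harmonic polynomials in `n` variables of total degree at most `k`:
all `p` with `deg p ≤ k` and `∑ i, ∂_i ∂_i p = 0` -/
noncomputable def harmPoly (n k : ℕ) : Submodule ℝ (MvPolynomial (Fin n) ℝ) where
  carrier := {p | p.totalDegree ≤ k ∧
    ∑ i : Fin n, MvPolynomial.pderiv i (MvPolynomial.pderiv i p) = 0}
  add_mem' := by
    intro p q hp hq
    refine ⟨(MvPolynomial.totalDegree_add p q).trans (max_le hp.1 hq.1), ?_⟩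
    simp only [map_add, Finset.sum_add_distrib, hp.2, hq.2, add_zero]
  zero_mem' := by
    refine ⟨by simp, ?_⟩
    simp
  smul_mem' := by
    intro c p hp
    refine ⟨(MvPolynomial.totalDegree_smul_le c p).trans hp.1, ?_⟩
    have h2 : ∑ i : Fin n, MvPolynomial.pderiv i (MvPolynomial.pderiv i p) = 0 := hp.2
    have h3 : ∑ i : Fin n, MvPolynomial.pderiv i (MvPolynomial.pderiv i (c • p))
        = c • ∑ i : Fin n, MvPolynomial.pderiv i (MvPolynomial.pderiv i p) := by
      rw [Finset.smul_sum]
      refine Finset.sum_congr rfl (fun i _ => ?_)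
      rw [Derivation.map_smul, Derivation.map_smul]
    show ∑ i : Fin n, MvPolynomial.pderiv i (MvPolynomial.pderiv i (c • p)) = 0
    rw [h3, h2, smul_zero]

end Vale.Agent.H60.Rot
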