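import Vale.Agent.H60.Radial.Growth

/-!
# Vanishing criteria for radial modes

A radial mode (`Vale.Agent.H60.Radial.Mode`) which is `O(r^d)` with `d < j` vanishes, a radial
mode that vanishes at `r = 1` vanishes identically, and radial modes are closed under finite
linear combinations.
-/

namespace Vale.Agent.H60.Radial

open Set Filter

variable {m j : ℕ} {f f' a a' a'' : ℝ → ℝ} {B : ℝ}

/-- a mode of degree `j` that is `O(r^d)` with `d < j` vanishes identically -/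
theorem Mode.eq_zero_of_growth (h : Mode m j f f' a a' a'' B) {C d : ℝ}
    (hgrow : ∀ r, 1 ≤ r → |a r| ≤ C * r ^ d) (hjd : d < (j : ℝ)) :
    ∀ r, 0 < r → a r = 0 := by
  by_contra hall
  push Not at hall
  obtain ⟨r₁, hr₁, har₁⟩ := hall
  set c : ℝ := a r₁ ^ 2 / (r₁ ^ j) ^ 2 with hc
  have hcpos : 0 < c := by positivity
  have key : ∀ r, max r₁ 1 ≤ r → c * (r ^ j) ^ 2 ≤ C ^ 2 * (r ^ d) ^ 2 := by
    intro r hr
    have hr1 : 1 ≤ r := (le_max_right _ _).trans hr
    have hrr : r₁ ≤ r := (le_max_left _ _).trans hr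
    have hr0 : 0 < r := lt_of_lt_of_le one_pos hr1
    have h1 : a r₁ ^ 2 / (r₁ ^ j) ^ 2 ≤ a r ^ 2 / (r ^ j) ^ 2 :=
      h.ratio_mono (mem_Ioi.mpr hr₁) (mem_Ioi.mpr hr0) hrr
    have h2 := hgrow r hr1
    have h3 : a r ^ 2 ≤ (C * r ^ d) ^ 2 := by
      rw [← sq_abs]
      exact pow_le_pow_left₀ (abs_nonneg _) h2 2
    have hpos : 0 < (r ^ j) ^ 2 := by positivity
    rw [← hc, le_div_iff₀ hpos] at h1
    calc c * (r ^ j) ^ 2 ≤ a r ^ 2 := h1
      _ ≤ (C * r ^ d) ^ 2 := h3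
      _ = C ^ 2 * (r ^ d) ^ 2 := by ring
  set K : ℝ := C ^ 2 / c with hK
  have hK0 : 0 ≤ K := by positivity
  have hexp : 0 < (j:ℝ) - d := by linarith
  have hev : ∀ᶠ r : ℝ in atTop, K + 1 < r ^ ((j:ℝ) - d) :=
    (tendsto_rpow_atTop hexp).eventually_gt_atTop (K + 1)
  obtain ⟨r, hr, hrK⟩ := ((eventually_ge_atTop (max r₁ 1)).and hev).exists
  have hr1 : 1 ≤ r := (le_max_right _ _).trans hr
  have hr0 : 0 < r := lt_of_lt_of_le one_pos hr1
  have h4 := key r hr
  have hsplit : r ^ ((j:ℝ) - d) = r ^ j / r ^ d := by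
    rw [Real.rpow_sub hr0, Real.rpow_natCast]
  have hrd : 0 < r ^ d := Real.rpow_pos_of_pos hr0 d
  have h5 : (r ^ ((j:ℝ) - d)) ^ 2 ≤ K := by
    rw [hsplit, div_pow, div_le_iff₀ (by positivity), hK, div_mul_eq_mul_div,
      le_div_iff₀ hcpos]
    linarith
  nlinarith

/-- a mode that vanishes at `r = 1` vanishes on `(0, 1]` -/
theorem Mode.eq_zero_of_one_le (h : Mode m j f f' a a' a'' B) (h1 : a 1 = 0) :
    ∀ r, 0 < r → r ≤ 1 → a r = 0 := by
  intro r hr hr1
  have h2 : a r ^ 2 / (r ^ j) ^ 2 ≤ a 1 ^ 2 / (1 ^ j) ^ 2 :=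
    h.ratio_mono (mem_Ioi.mpr hr) (mem_Ioi.mpr one_pos) hr1
  rw [h1] at h2
  have hpos : 0 < (r ^ j) ^ 2 := by positivity
  have h3 : a r ^ 2 / (r ^ j) ^ 2 ≤ 0 := by
    refine h2.trans (le_of_eq ?_)
    simp
  have h4 : a r ^ 2 ≤ 0 := by
    rw [div_le_iff₀ hpos] at h3
    linarith
  have h5 : a r ^ 2 = 0 := le_antisymm h4 (sq_nonneg _)
  exact pow_eq_zero_iff (two_ne_zero) |>.mp h5

/-- uniqueness for the mode equation: a mode that vanishes at `r = 1` vanishes identically -/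
theorem Mode.eq_zero_of_one (h : Mode m j f f' a a' a'' B) (h1 : a 1 = 0) :
    ∀ r, 0 < r → a r = 0 := by
  have hsmall := h.eq_zero_of_one_le h1
  intro R hR
  rcases le_or_gt R 1 with hR1 | hR1
  · exact hsmall R hR hR1
  -- the derivative vanishes at 1/2
  have hhalf : a' (1 / 2) = 0 := by
    have hev : a =ᶠ[nhds (1 / 2 : ℝ)] fun _ => (0 : ℝ) := by
      have hmem : Ioo (1 / 4 : ℝ) 1 ∈ nhds (1 / 2 : ℝ) := Ioo_mem_nhds (by norm_num) (by norm_num)
      exact Filter.eventuallyEq_of_mem hmem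
        (fun x hx => hsmall x (by linarith [hx.1]) hx.2.le)
    have hd0 : HasDerivAt a 0 (1 / 2 : ℝ) :=
      (hasDerivAt_const (1 / 2 : ℝ) (0 : ℝ)).congr_of_eventuallyEq hev
    exact (h.ha (1 / 2) (by norm_num)).unique hd0
  have ha_half : a (1 / 2) = 0 := hsmall (1 / 2) (by norm_num) (by norm_num)
  -- a positive lower bound for f on [1/2, R]
  have hfc : ContinuousOn f (Icc (1 / 2) R) := fun x hx =>
    (h.hf x (by linarith [hx.1])).continuousAt.continuousWithinAt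
  have hne : (Icc (1 / 2 : ℝ) R).Nonempty := ⟨1 / 2, left_mem_Icc.mpr (by linarith)⟩
  obtain ⟨x₀, hx₀, hmin⟩ := isCompact_Icc.exists_isMinOn hne hfc
  set δ : ℝ := f x₀ with hδ
  have hδpos : 0 < δ := h.hfpos x₀ (by linarith [hx₀.1])
  have hδle : ∀ x ∈ Icc (1 / 2 : ℝ) R, δ ≤ f x := fun x hx => hmin hx
  set μ : ℝ := (j:ℝ) * (j + m + 1) with hμ
  have hμ0 : 0 ≤ μ := by positivity
  set K : ℝ := 1 / δ ^ (m + 2) + μ * R ^ m with hK
  set F : ℝ → ℝ := fun r => f r ^ (m + 2) * a' r with hF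
  set En : ℝ → ℝ := fun r => a r ^ 2 + F r ^ 2 with hEn
  have hEd : ∀ s, 0 < s → HasDerivAt En (2 * a s * a' s + 2 * F s * (μ * f s ^ m * a s)) s := by
    intro s hs
    have h2 : HasDerivAt (fun r : ℝ => a r ^ 2) (2 * a s * a' s) s := by
      have h0 : HasDerivAt (fun r : ℝ => a r ^ 2)
          (((2 : ℕ) : ℝ) * a s ^ (2 - 1) * a' s) s := (h.ha s hs).pow 2
      refine h0.congr_deriv ?_
      norm_num
    have h3 : HasDerivAt (fun r : ℝ => F r ^ 2) (2 * F s * (μ * f s ^ m * a s)) s := by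
      have h0 : HasDerivAt (fun r : ℝ => F r ^ 2)
          (((2 : ℕ) : ℝ) * F s ^ (2 - 1) * (μ * f s ^ m * a s)) s := (h.flux_deriv hs).pow 2
      refine h0.congr_deriv ?_
      norm_num
    exact h2.add h3
  have hEle : ∀ s ∈ Icc (1 / 2 : ℝ) R,
      2 * a s * a' s + 2 * F s * (μ * f s ^ m * a s) ≤ K * En s := by
    intro s hs
    have hs0 : 0 < s := by linarith [hs.1]
    have hfs := h.hfpos s hs0
    have hfδ := hδle s hs
    have hfle : f s ≤ R := (h.hfle s hs0).trans hs.2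
    have hpow : δ ^ (m + 2) ≤ f s ^ (m + 2) := pow_le_pow_left₀ hδpos.le hfδ _
    have hpowpos : 0 < δ ^ (m + 2) := pow_pos hδpos _
    have hfpowpos : 0 < f s ^ (m + 2) := pow_pos hfs _
    have hinv : 1 / f s ^ (m + 2) ≤ 1 / δ ^ (m + 2) :=
      one_div_le_one_div_of_le hpowpos hpow
    have hE0 : 0 ≤ En s := by
      show 0 ≤ a s ^ 2 + F s ^ 2
      positivity
    have e1 : 2 * a s * a' s = 2 * a s * F s * (1 / f s ^ (m + 2)) := by
      show 2 * a s * a' s = 2 * a s * (f s ^ (m + 2) * a' s) * (1 / f s ^ (m + 2))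
      field_simp
    have h4 : 2 * a s * F s ≤ En s := by
      show 2 * a s * F s ≤ a s ^ 2 + F s ^ 2
      nlinarith [sq_nonneg (a s - F s)]
    have h4' : -(En s) ≤ 2 * a s * F s := by
      show -(a s ^ 2 + F s ^ 2) ≤ 2 * a s * F s
      nlinarith [sq_nonneg (a s + F s)]
    have h5 : 2 * a s * a' s ≤ 1 / δ ^ (m + 2) * En s := by
      rw [e1]
      have hnn : 0 ≤ 1 / f s ^ (m + 2) := by positivity
      calc 2 * a s * F s * (1 / f s ^ (m + 2)) ≤ En s * (1 / f s ^ (m + 2)) :=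
            mul_le_mul_of_nonneg_right h4 hnn
        _ ≤ En s * (1 / δ ^ (m + 2)) := mul_le_mul_of_nonneg_left hinv hE0
        _ = 1 / δ ^ (m + 2) * En s := by ring
    have hfm : f s ^ m ≤ R ^ m := pow_le_pow_left₀ hfs.le hfle _
    have hfm0 : 0 ≤ f s ^ m := pow_nonneg hfs.le _
    have h6 : 2 * F s * (μ * f s ^ m * a s) ≤ μ * R ^ m * En s := by
      have e2 : 2 * F s * (μ * f s ^ m * a s) = (μ * f s ^ m) * (2 * a s * F s) := by ring
      rw [e2]
      calc (μ * f s ^ m) * (2 * a s * F s) ≤ (μ * f s ^ m) * En s :=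
            mul_le_mul_of_nonneg_left h4 (mul_nonneg hμ0 hfm0)
        _ ≤ (μ * R ^ m) * En s :=
            mul_le_mul_of_nonneg_right (mul_le_mul_of_nonneg_left hfm hμ0) hE0
    rw [hK]
    linarith
  -- the Gronwall function
  have hgd : ∀ s, 0 < s → HasDerivAt (fun r => En r * Real.exp (-(K * r)))
      ((2 * a s * a' s + 2 * F s * (μ * f s ^ m * a s)) * Real.exp (-(K * s))
        + En s * (Real.exp (-(K * s)) * (-(K * 1)))) s := by
    intro s hs
    have hexp : HasDerivAt (fun r : ℝ => Real.exp (-(K * r)))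
        (Real.exp (-(K * s)) * (-(K * 1))) s :=
      (((hasDerivAt_id s).const_mul K).neg).exp
    exact (hEd s hs).mul hexp
  have hanti : AntitoneOn (fun r => En r * Real.exp (-(K * r))) (Icc (1 / 2 : ℝ) R) := by
    apply antitoneOn_of_deriv_nonpos (convex_Icc _ _)
    · intro s hs
      exact (hgd s (by linarith [hs.1])).continuousAt.continuousWithinAt
    · intro s hs
      rw [interior_Icc] at hs
      exact (hgd s (by linarith [hs.1])).differentiableAt.differentiableWithinAt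
    · intro s hs
      rw [interior_Icc] at hs
      have hs0 : 0 < s := by linarith [hs.1]
      rw [(hgd s hs0).deriv]
      have h7 := hEle s ⟨hs.1.le, hs.2.le⟩
      have hexpos : 0 < Real.exp (-(K * s)) := Real.exp_pos _
      have e3 : (2 * a s * a' s + 2 * F s * (μ * f s ^ m * a s)) * Real.exp (-(K * s))
          + En s * (Real.exp (-(K * s)) * (-(K * 1)))
          = ((2 * a s * a' s + 2 * F s * (μ * f s ^ m * a s)) - K * En s)
            * Real.exp (-(K * s)) := by ring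
      rw [e3]
      exact mul_nonpos_of_nonpos_of_nonneg (by linarith) hexpos.le
  have hfin := hanti (left_mem_Icc.mpr (by linarith : (1 / 2 : ℝ) ≤ R))
    (right_mem_Icc.mpr (by linarith : (1 / 2 : ℝ) ≤ R)) (by linarith : (1 / 2 : ℝ) ≤ R)
  have hE_half : En (1 / 2) = 0 := by
    show a (1 / 2) ^ 2 + (f (1 / 2) ^ (m + 2) * a' (1 / 2)) ^ 2 = 0
    rw [ha_half, hhalf]
    ring
  simp only [hE_half, zero_mul] at hfin
  have hexpos : 0 < Real.exp (-(K * R)) := Real.exp_pos _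
  have hER : En R ≤ 0 := by
    by_contra hcon
    push Not at hcon
    have := mul_pos hcon hexpos
    linarith
  have hER' : a R ^ 2 + F R ^ 2 ≤ 0 := hER
  have h8 : a R ^ 2 ≤ 0 := by nlinarith [sq_nonneg (F R)]
  have h9 : a R ^ 2 = 0 := le_antisymm h8 (sq_nonneg _)
  exact pow_eq_zero_iff (two_ne_zero) |>.mp h9

/-- modes are closed under finite linear combinations -/
theorem Mode.lincomb {ι : Type*} (s : Finset ι) (c : ι → ℝ) {a a' a'' : ι → ℝ → ℝ} {B : ι → ℝ}
    (hf : ∀ r, 0 < r → HasDerivAt f (f' r) r) (hfpos : ∀ r, 0 < r → 0 < f r)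
    (hfle : ∀ r, 0 < r → f r ≤ r) (hf'le : ∀ r, 0 < r → r * f' r ≤ f r)
    (h : ∀ l ∈ s, Mode m j f f' (a l) (a' l) (a'' l) (B l)) :
    Mode m j f f' (fun r => ∑ l ∈ s, c l * a l r) (fun r => ∑ l ∈ s, c l * a' l r)
      (fun r => ∑ l ∈ s, c l * a'' l r) (∑ l ∈ s, |c l| * B l) where
  hf := hf
  hfpos := hfpos
  hfle := hfle
  hf'le := hf'le
  ha := fun r hr => HasDerivAt.fun_sum (fun l hl => ((h l hl).ha r hr).const_mul (c l))
  ha' := fun r hr => HasDerivAt.fun_sum (fun l hl => ((h l hl).ha' r hr).const_mul (c l))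
  hode := fun r hr => by
    have e : (∑ l ∈ s, c l * a'' l r) + ((m:ℝ) + 2) * (f' r / f r) * (∑ l ∈ s, c l * a' l r)
        - (j:ℝ) * (j + m + 1) * (∑ l ∈ s, c l * a l r) / (f r) ^ 2
        = ∑ l ∈ s, c l * (a'' l r + ((m:ℝ) + 2) * (f' r / f r) * a' l r
          - (j:ℝ) * (j + m + 1) * a l r / (f r) ^ 2) := by
      rw [Finset.mul_sum, Finset.mul_sum, Finset.sum_div, ← Finset.sum_add_distrib,
        ← Finset.sum_sub_distrib]
      refine Finset.sum_congr rfl (fun l _ => ?_)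
      ring
    rw [e]
    refine Finset.sum_eq_zero (fun l hl => ?_)
    rw [(h l hl).hode r hr, mul_zero]
  hbdd := fun r hr hr1 => by
    refine (Finset.abs_sum_le_sum_abs _ _).trans (Finset.sum_le_sum (fun l hl => ?_))
    rw [abs_mul]
    exact mul_le_mul_of_nonneg_left ((h l hl).hbdd r hr hr1) (abs_nonneg _)

end Vale.Agent.H60.Radial
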