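import Mathlib

/-!
# The Laplacian of a rotationally symmetric metric in Cartesian coordinates

On `ℝ^n` with the metric `g = dr^2 + f(r)^2 g_S` (polar coordinates `x = r θ`, `g_S` the round
metric of the unit sphere) one has `Δ_g u = ∂_r² u + (n-1) (f'/f) ∂_r u + f^(-2) Δ_S u`, and the
Euclidean Laplacian is `Δ u = ∂_r² u + ((n-1)/r) ∂_r u + r^(-2) Δ_S u`.
-/

namespace Vale.Agent.H60.Rot

/-- the radial derivative `∂_r u (x) = Du(x)[x] / |x|` -/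
noncomputable def radialD (n : ℕ) (u : EuclideanSpace ℝ (Fin n) → ℝ)
    (x : EuclideanSpace ℝ (Fin n)) : ℝ :=
  fderiv ℝ u x x / ‖x‖

/-- the second radial derivative `∂_r² u (x) = D²u(x)[x, x] / |x|^2` -/
noncomputable def radialD2 (n : ℕ) (u : EuclideanSpace ℝ (Fin n) → ℝ)
    (x : EuclideanSpace ℝ (Fin n)) : ℝ :=
  fderiv ℝ (fderiv ℝ u) x x x / ‖x‖ ^ 2

/-- the Euclidean Laplacian `Δ u (x) = ∑ i, D²u(x)[e_i, e_i]` -/
noncomputable def euclLap (n : ℕ) (u : EuclideanSpace ℝ (Fin n) → ℝ)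
    (x : EuclideanSpace ℝ (Fin n)) : ℝ :=
  ∑ i : Fin n, fderiv ℝ (fderiv ℝ u) x (EuclideanSpace.single i (1 : ℝ))
    (EuclideanSpace.single i (1 : ℝ))

/-- the Laplacian of the unit sphere applied to `θ ↦ u(|x| θ)` at `θ = x / |x|`, in Cartesian
form: `Δ_S u (x) = |x|^2 Δ u (x) - D²u(x)[x, x] - (n - 1) Du(x)[x]` -/
noncomputable def sphereLap (n : ℕ) (u : EuclideanSpace ℝ (Fin n) → ℝ)
    (x : EuclideanSpace ℝ (Fin n)) : ℝ :=
  ‖x‖ ^ 2 * euclLap n u x - fderiv ℝ (fderiv ℝ u) x x x - ((n : ℝ) - 1) * fderiv ℝ u x x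

/-- the Laplacian of the metric `dr^2 + f(r)^2 g_S` on `ℝ^n` at `x ≠ 0`, `r = |x|`:
`Δ_g u = ∂_r² u + (n - 1) (f'(r) / f(r)) ∂_r u + f(r)^(-2) Δ_S u` -/
noncomputable def rotLap (n : ℕ) (f : ℝ → ℝ) (u : EuclideanSpace ℝ (Fin n) → ℝ)
    (x : EuclideanSpace ℝ (Fin n)) : ℝ :=
  radialD2 n u x + ((n : ℝ) - 1) * (deriv f ‖x‖ / f ‖x‖) * radialD n u x
    + (1 / f ‖x‖ ^ 2) * sphereLap n u x

end Vale.Agent.H60.Rot
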