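import Vale.Agent.H60.Rot.Complete
import Vale.Agent.H60.Rot.ModeZero
import Vale.Agent.H60.Rot.HarmPoly
import Vale.Agent.H60.Rot.Operator

/-!
# Yau's dimension comparison on rotationally symmetric manifolds with `Ric ≥ 0`

The space of harmonic functions of polynomial growth of order at most `d` on
`(ℝ^n, dr^2 + f(r)^2 g_S)`, `f'' ≤ 0`, has dimension at most the dimension of the space of
harmonic polynomials of degree at most `d` on `ℝ^n`.
-/

namespace Vale.Agent.H60.Rot

open MeasureTheory Set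

variable {n : ℕ}

theorem pfun_add (p q : MvPolynomial (Fin n) ℝ) (x : E n) :
    pfun (p + q) x = pfun p x + pfun q x := by
  unfold pfun
  rw [map_add]

theorem pfun_smul (c : ℝ) (p : MvPolynomial (Fin n) ℝ) (x : E n) :
    pfun (c • p) x = c * pfun p x := by
  unfold pfun
  rw [MvPolynomial.smul_eval]

theorem harmPoly_finite (n k : ℕ) : Module.Finite ℝ (harmPoly n k) := by
  have hle : harmPoly n k ≤ MvPolynomial.restrictTotalDegree (Fin n) ℝ k := by
    intro p hp
    rw [MvPolynomial.mem_restrictTotalDegree]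
    exact hp.1
  exact Submodule.finiteDimensional_of_le hle

/-- the pairing of a function with the harmonic polynomials of degree at most `k` -/
noncomputable def pairing (u : E n → ℝ) (hu : Continuous u) (k : ℕ) :
    Module.Dual ℝ (harmPoly n k) where
  toFun := fun Q => md u (pfun Q.1) 1
  map_add' := by
    intro Q₁ Q₂
    have e : pfun ((Q₁ + Q₂ : harmPoly n k) : MvPolynomial (Fin n) ℝ)
        = fun q => pfun Q₁.1 q + pfun Q₂.1 q := by
      funext q
      rw [Submodule.coe_add, pfun_add]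
    show md u (pfun ((Q₁ + Q₂ : harmPoly n k) : MvPolynomial (Fin n) ℝ)) 1 = _
    rw [e]
    exact md_add_right hu (pfun_contDiff Q₁.1).continuous (pfun_contDiff Q₂.1).continuous 1
  map_smul' := by
    intro c Q
    have e : pfun ((c • Q : harmPoly n k) : MvPolynomial (Fin n) ℝ)
        = fun q => c * pfun Q.1 q := by
      funext q
      rw [Submodule.coe_smul, pfun_smul]
    show md u (pfun ((c • Q : harmPoly n k) : MvPolynomial (Fin n) ℝ)) 1 = _
    rw [e]
    exact md_smul_right u c (pfun Q.1) 1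

/-- Yau's dimension comparison for rotationally symmetric manifolds, with the equation written
out. -/
theorem yau_rot_aux (n : ℕ) (hn : 3 ≤ n) (f : ℝ → ℝ) (hf : ContDiff ℝ 2 f) (hf0 : f 0 = 0)
    (hf1 : deriv f 0 = 1) (hfpos : ∀ r, 0 < r → 0 < f r)
    (hfconc : ∀ r, 0 ≤ r → deriv (deriv f) r ≤ 0)
    (d : ℝ) (hd : 0 ≤ d) (m : ℕ) (u : Fin m → E n → ℝ)
    (hu : ∀ l, ContDiff ℝ 2 (u l))
    (hpde : ∀ l, ∀ x : E n, x ≠ 0 → fderiv ℝ (fderiv ℝ (u l)) x x x / ‖x‖ ^ 2
      + ((n : ℝ) - 1) * (deriv f ‖x‖ / f ‖x‖) * (fderiv ℝ (u l) x x / ‖x‖)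
      + (1 / f ‖x‖ ^ 2) * Lam (u l) x = 0)
    (hgrow : ∀ l, ∃ C : ℝ, ∀ x : E n, |u l x| ≤ C * (1 + ‖x‖) ^ d)
    (hli : LinearIndependent ℝ u) :
    m ≤ Module.finrank ℝ (harmPoly n ⌊d⌋₊) := by
  by_contra hlt
  push Not at hlt
  set k : ℕ := ⌊d⌋₊ with hk
  have hfin : Module.Finite ℝ (harmPoly n k) := harmPoly_finite n k
  have huc : ∀ l, Continuous (u l) := fun l => (hu l).continuous
  -- the pairings are linearly dependent
  have hdep : ¬ LinearIndependent ℝ (fun l => pairing (u l) (huc l) k) := by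
    intro hind
    have h1 := hind.fintype_card_le_finrank
    rw [Fintype.card_fin, Subspace.dual_finrank_eq] at h1
    exact absurd h1 (not_le.mpr hlt)
  obtain ⟨c, hc, l₀, hl₀⟩ := Fintype.not_linearIndependent_iff.mp hdep
  have hcQ : ∀ Q : harmPoly n k, ∑ l, c l * md (u l) (pfun Q.1) 1 = 0 := by
    intro Q
    have h1 := congrArg (fun φ : Module.Dual ℝ (harmPoly n k) => φ Q) hc
    simp only [LinearMap.sum_apply, LinearMap.smul_apply, LinearMap.zero_apply, smul_eq_mul]
      at h1
    exact h1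
  -- the radial-mode structure of the linear combination
  obtain ⟨hfle, hf'le⟩ := Radial.concave_facts hf hf0 hf1 hfconc
  have hfd : Differentiable ℝ f := hf.differentiable (by norm_num)
  have hw : Continuous (fun x : E n => ∑ l, c l * u l x) :=
    continuous_finsetSum _ (fun l _ => continuous_const.mul (huc l))
  have hwzero : ∀ x : E n, ∑ l, c l * u l x = 0 := by
    refine eq_zero_of_modes (by omega) hw ?_
    intro j P hP hlap r hr
    have hYc : Continuous (pfun P) := (pfun_contDiff P).continuous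
    rw [md_lincomb Finset.univ c (fun l _ => huc l) hYc r]
    have hex : ∀ l, ∃ B : ℝ, Radial.Mode (n - 3) j f (deriv f) (md (u l) (pfun P))
        (md1 (u l) (pfun P)) (md2 (u l) (pfun P)) B :=
      fun l => mode_of_harmonic hn hf hf0 hf1 hfpos hfconc (hu l) (hpde l) hP hlap
    choose B hB using hex
    have hmode := Radial.Mode.lincomb (m := n - 3) (j := j) Finset.univ c
      (fun r _ => (hfd r).hasDerivAt) hfpos hfle hf'le (fun l _ => hB l)
    rcases le_or_gt j k with hjk | hjk
    · -- degree at most `k`: the mode vanishes at `r = 1`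
      have hmem : P ∈ harmPoly n k := ⟨hP.totalDegree_le.trans hjk, hlap⟩
      have h1 : ∑ l, c l * md (u l) (pfun P) 1 = 0 := hcQ ⟨P, hmem⟩
      exact hmode.eq_zero_of_one h1 r hr
    · -- degree above `d`: the mode vanishes by the growth bound
      have hjd : d < (j : ℝ) := (Nat.floor_lt hd).mp hjk
      have hexC : ∀ l, ∃ C' : ℝ, ∀ r, 1 ≤ r → |md (u l) (pfun P) r| ≤ C' * r ^ d := by
        intro l
        obtain ⟨C, hC⟩ := hgrow l
        exact md_growth hd hC hYc
      choose C' hC' using hexC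
      have hgr : ∀ r, 1 ≤ r → |∑ l, c l * md (u l) (pfun P) r| ≤ (∑ l, |c l| * C' l) * r ^ d := by
        intro r hr1
        rw [Finset.sum_mul]
        refine (Finset.abs_sum_le_sum_abs _ _).trans (Finset.sum_le_sum (fun l _ => ?_))
        rw [abs_mul, mul_assoc]
        exact mul_le_mul_of_nonneg_left (hC' l r hr1) (abs_nonneg _)
      exact hmode.eq_zero_of_growth hgr hjd r hr
  -- contradiction with the linear independence
  have hsum : ∑ l, c l • u l = 0 := by
    funext x
    rw [Finset.sum_apply]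
    simp only [Pi.smul_apply, smul_eq_mul, Pi.zero_apply]
    exact hwzero x
  exact hl₀ (Fintype.linearIndependent_iff.mp hli c hsum l₀)

/-- **Yau's dimension comparison for rotationally symmetric manifolds.** -/
theorem yau_rot (n : ℕ) (hn : 3 ≤ n) (f : ℝ → ℝ) (hf : ContDiff ℝ 2 f) (hf0 : f 0 = 0)
    (hf1 : deriv f 0 = 1) (hfpos : ∀ r, 0 < r → 0 < f r)
    (hfconc : ∀ r, 0 ≤ r → deriv (deriv f) r ≤ 0)
    (d : ℝ) (hd : 0 ≤ d) (m : ℕ) (u : Fin m → EuclideanSpace ℝ (Fin n) → ℝ)
    (hu : ∀ l, ContDiff ℝ 2 (u l))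
    (hharm : ∀ l, ∀ x : EuclideanSpace ℝ (Fin n), x ≠ 0 → rotLap n f (u l) x = 0)
    (hgrow : ∀ l, ∃ C : ℝ, ∀ x : EuclideanSpace ℝ (Fin n), |u l x| ≤ C * (1 + ‖x‖) ^ d)
    (hli : LinearIndependent ℝ u) :
    m ≤ Module.finrank ℝ (harmPoly n ⌊d⌋₊) := by
  refine yau_rot_aux n hn f hf hf0 hf1 hfpos hfconc d hd m u hu ?_ hgrow hli
  intro l x hx
  have h := hharm l x hx
  unfold rotLap radialD2 radialD sphereLap euclLap at h
  exact h

end Vale.Agent.H60.Rot
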