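import Vale.Agent.H60.Rot.Core
import Vale.Agent.H60.Radial.Main

/-!
# The modes of a harmonic function are radial modes

The sphere integrals `a(r) = ∫_S u(r θ) P(θ) dθ` of a harmonic function `u` against a homogeneous
harmonic polynomial `P` of degree `j` form a radial mode in the sense of
`Vale.Agent.H60.Radial.Mode`, and inherit the polynomial growth of `u`.
-/

namespace Vale.Agent.H60.Rot

open MeasureTheory Set

variable {n : ℕ}

/-- the mode of `u` against `Y` -/
noncomputable def md (u Y : E n → ℝ) (r : ℝ) : ℝ := sph (fun q => u (r • q) * Y q)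

/-- the first radial derivative of the mode -/
noncomputable def md1 (u Y : E n → ℝ) (r : ℝ) : ℝ := sph (fun q => fderiv ℝ u (r • q) q * Y q)

/-- the second radial derivative of the mode -/
noncomputable def md2 (u Y : E n → ℝ) (r : ℝ) : ℝ :=
  sph (fun q => fderiv ℝ (fderiv ℝ u) (r • q) q q * Y q)

/-- the modes of a harmonic function are radial modes -/
theorem mode_of_harmonic (hn : 3 ≤ n) {f : ℝ → ℝ} (hf : ContDiff ℝ 2 f) (hf0 : f 0 = 0)
    (hf1 : deriv f 0 = 1) (hfpos : ∀ r, 0 < r → 0 < f r)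
    (hfconc : ∀ r, 0 ≤ r → deriv (deriv f) r ≤ 0)
    {u : E n → ℝ} (hu : ContDiff ℝ 2 u)
    (hpde : ∀ x : E n, x ≠ 0 → fderiv ℝ (fderiv ℝ u) x x x / ‖x‖ ^ 2
      + ((n : ℝ) - 1) * (deriv f ‖x‖ / f ‖x‖) * (fderiv ℝ u x x / ‖x‖)
      + (1 / f ‖x‖ ^ 2) * Lam u x = 0)
    {P : MvPolynomial (Fin n) ℝ} {j : ℕ} (hP : P.IsHomogeneous j) (hlap : lap P = 0) :
    ∃ B : ℝ, Radial.Mode (n - 3) j f (deriv f) (md u (pfun P)) (md1 u (pfun P))
      (md2 u (pfun P)) B := by
  obtain ⟨hfle, hf'le⟩ := Radial.concave_facts hf hf0 hf1 hfconc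
  have hfd : Differentiable ℝ f := hf.differentiable (by norm_num)
  have hYc : Continuous (pfun P) := (pfun_contDiff P).continuous
  obtain ⟨Cu, hCu⟩ := bounded_on_closedBall hu.continuous
  obtain ⟨CY, hCY⟩ := bounded_on_closedBall hYc
  have hCu0 : 0 ≤ Cu := (abs_nonneg _).trans (hCu 0 (Metric.mem_closedBall_self zero_le_one))
  refine ⟨Cu * CY * (volume : Measure (E n)).real (Metric.ball 0 1), ?_⟩
  exact
    { hf := fun r _ => (hfd r).hasDerivAt
      hfpos := hfpos
      hfle := hfle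
      hf'le := hf'le
      ha := fun r _ => hasDerivAt_radial hu hYc r
      ha' := fun r _ => hasDerivAt_radial2 hu hYc r
      hode := fun r hr => by
        have h := mode_ode hu hpde hP hlap hr
        have hcast : ((n - 3 : ℕ) : ℝ) = (n : ℝ) - 3 := by
          rw [Nat.cast_sub hn]
          norm_num
        show md2 u (pfun P) r + (((n - 3 : ℕ) : ℝ) + 2) * (deriv f r / f r) * md1 u (pfun P) r
          - (j : ℝ) * (j + ((n - 3 : ℕ) : ℝ) + 1) * md u (pfun P) r / (f r) ^ 2 = 0
        rw [hcast]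
        unfold md md1 md2
        linear_combination h
      hbdd := fun r hr hr1 => by
        refine abs_sph_le (fun q hq => ?_)
        rw [mem_closedBall_zero_iff] at hq
        have hrq : r • q ∈ Metric.closedBall (0 : E n) 1 := by
          rw [mem_closedBall_zero_iff, norm_smul, Real.norm_of_nonneg hr.le]
          calc r * ‖q‖ ≤ 1 * 1 := mul_le_mul hr1 hq (norm_nonneg _) zero_le_one
            _ = 1 := one_mul 1
        rw [abs_mul]
        exact mul_le_mul (hCu _ hrq) (hCY q (mem_closedBall_zero_iff.mpr hq)) (abs_nonneg _) hCu0 }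

/-- the modes inherit the polynomial growth -/
theorem md_growth {u : E n → ℝ} {C d : ℝ} (hd : 0 ≤ d)
    (hgrow : ∀ x : E n, |u x| ≤ C * (1 + ‖x‖) ^ d) {Y : E n → ℝ} (hY : Continuous Y) :
    ∃ C' : ℝ, ∀ r, 1 ≤ r → |md u Y r| ≤ C' * r ^ d := by
  obtain ⟨CY, hCY⟩ := bounded_on_closedBall hY
  have hC0 : 0 ≤ C := by
    have h := hgrow 0
    rw [norm_zero, add_zero, Real.one_rpow, mul_one] at h
    exact (abs_nonneg _).trans h
  refine ⟨C * 2 ^ d * CY * (volume : Measure (E n)).real (Metric.ball 0 1), ?_⟩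
  intro r hr
  have hr0 : 0 < r := lt_of_lt_of_le one_pos hr
  have hrd : 0 ≤ r ^ d := Real.rpow_nonneg hr0.le d
  have h2d : 0 ≤ (2 : ℝ) ^ d := Real.rpow_nonneg (by norm_num) d
  have key : |md u Y r| ≤ (C * 2 ^ d * r ^ d * CY) * (volume : Measure (E n)).real
      (Metric.ball 0 1) := by
    refine abs_sph_le (fun q hq => ?_)
    have hq' := hq
    rw [mem_closedBall_zero_iff] at hq'
    have h1 : ‖r • q‖ ≤ r := by
      rw [norm_smul, Real.norm_of_nonneg hr0.le]
      calc r * ‖q‖ ≤ r * 1 := mul_le_mul_of_nonneg_left hq' hr0.le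
        _ = r := mul_one r
    have h2 : (1 + ‖r • q‖) ^ d ≤ (2 * r) ^ d :=
      Real.rpow_le_rpow (by positivity) (by linarith) hd
    have h3 : (2 * r) ^ d = 2 ^ d * r ^ d := Real.mul_rpow (by norm_num) hr0.le
    have h4 : |u (r • q)| ≤ C * 2 ^ d * r ^ d := by
      calc |u (r • q)| ≤ C * (1 + ‖r • q‖) ^ d := hgrow _
        _ ≤ C * (2 * r) ^ d := mul_le_mul_of_nonneg_left h2 hC0
        _ = C * 2 ^ d * r ^ d := by rw [h3]; ring
    rw [abs_mul]
    exact mul_le_mul h4 (hCY q hq) (abs_nonneg _) (by positivity)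
  calc |md u Y r| ≤ (C * 2 ^ d * r ^ d * CY) * (volume : Measure (E n)).real
        (Metric.ball 0 1) := key
    _ = C * 2 ^ d * CY * (volume : Measure (E n)).real (Metric.ball 0 1) * r ^ d := by ring

/-- linearity of the mode in the function -/
theorem md_lincomb {ι : Type*} (s : Finset ι) (c : ι → ℝ) {u : ι → E n → ℝ}
    (hu : ∀ l ∈ s, Continuous (u l)) {Y : E n → ℝ} (hY : Continuous Y) (r : ℝ) :
    md (fun x => ∑ l ∈ s, c l * u l x) Y r = ∑ l ∈ s, c l * md (u l) Y r := by
  unfold md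
  have hS : Continuous (fun q : E n => r • q) := continuous_const_smul r
  have e1 : (fun q : E n => (∑ l ∈ s, c l * u l (r • q)) * Y q)
      = fun q => ∑ l ∈ s, c l * (u l (r • q) * Y q) := by
    funext q
    rw [Finset.sum_mul]
    exact Finset.sum_congr rfl (fun l _ => by ring)
  rw [e1, sph_sum s (K := fun l q => c l * (u l (r • q) * Y q))
    (fun l hl => continuous_const.mul (((hu l hl).comp hS).mul hY))]
  exact Finset.sum_congr rfl (fun l _ => sph_const_mul (c l) _)

/-- additivity of the mode in the test function -/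
theorem md_add_right {u : E n → ℝ} (hu : Continuous u) {Y₁ Y₂ : E n → ℝ} (h₁ : Continuous Y₁)
    (h₂ : Continuous Y₂) (r : ℝ) :
    md u (fun q => Y₁ q + Y₂ q) r = md u Y₁ r + md u Y₂ r := by
  unfold md
  have hS : Continuous (fun q : E n => r • q) := continuous_const_smul r
  have e1 : (fun q : E n => u (r • q) * (Y₁ q + Y₂ q))
      = fun q => u (r • q) * Y₁ q + u (r • q) * Y₂ q := by
    funext q
    ring
  rw [e1]
  exact sph_add ((hu.comp hS).mul h₁) ((hu.comp hS).mul h₂)

/-- homogeneity of the mode in the test function -/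
theorem md_smul_right (u : E n → ℝ) (c : ℝ) (Y : E n → ℝ) (r : ℝ) :
    md u (fun q => c * Y q) r = c * md u Y r := by
  unfold md
  rw [← sph_const_mul]
  refine sph_congr (fun q _ => ?_)
  ring

end Vale.Agent.H60.Rot
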